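import Vale.Agent.Lib.P064H.Overlap

/-!
All lifts, for a block with few edges and few disjoint lifts.
-/

open Finset

namespace Vale.Agent.Lib.P064H

open Vale.Agent.Lib.P064 Vale.Agent.Lib.P064E
open scoped Classical

variable {V α : Type} [Fintype V] [Fintype α] {F : SimpleGraph α} {H : SimpleGraph V} {n : ℕ}
  {q l lam : ℝ} {K C : Finset α}

/-- The size of the union of all lifts: `2 |U| ≤ m^2 baseB l`. -/
lemma all_union_num {m t a val : ℝ} {Ucard : ℝ} (hl : 1 ≤ l) (hm : 1 ≤ m) (ha : a ≤ m)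
    (ht0 : 0 ≤ t) (ht : t ≤ m * l) (hval : Real.exp val ≤ m * l)
    (hU : Ucard ≤ a * l + t * m + t * max val 0) :
    2 * Ucard ≤ m ^ 2 * baseB l := by
  have hlpos : 0 < l := by linarith
  have hml : 0 < m * l := by positivity
  have hlogl : 0 ≤ Real.log l := Real.log_nonneg hl
  have hv1 : val ≤ Real.log (m * l) := (Real.le_log_iff_exp_le hml).2 hval
  have hv2 : Real.log (m * l) = Real.log m + Real.log l :=
    Real.log_mul (by positivity) (by positivity)
  have hv3 : Real.log m ≤ m - 1 := Real.log_le_sub_one_of_pos (by linarith)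
  have hmax : max val 0 ≤ m + Real.log l := by
    refine max_le ?_ (by linarith)
    linarith
  have hmax0 : 0 ≤ max val 0 := le_max_right _ _
  have h1 : a * l ≤ m * l := mul_le_mul_of_nonneg_right ha hlpos.le
  have h2 : t * m ≤ m * l * m := mul_le_mul_of_nonneg_right ht (by linarith)
  have h3 : t * max val 0 ≤ m * l * (m + Real.log l) :=
    mul_le_mul ht hmax hmax0 hml.le
  have h4 : Ucard ≤ m * l * (1 + 2 * m + Real.log l) := by nlinarith
  have h5 : (1 : ℝ) + 2 * m + Real.log l ≤ m * (3 + Real.log l) := by nlinarith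
  have h6 : Ucard ≤ m ^ 2 * (l * (3 + Real.log l)) := by
    have := mul_le_mul_of_nonneg_left h5 hml.le
    nlinarith
  have h7 : 2 * (l * (3 + Real.log l)) ≤ baseB l := by
    unfold baseB scale
    have h8 : Real.log (l + 1) ≤ (⌈Real.log (l + 1)⌉₊ : ℝ) := Nat.le_ceil _
    have h9 : Real.log l ≤ Real.log (l + 1) := Real.log_le_log hlpos (by linarith)
    have h10 : 3 + Real.log l ≤ 3 * ((⌈Real.log (l + 1)⌉₊ : ℝ) + 1) := by linarith
    push_cast
    nlinarith
  have hm2 : 0 ≤ m ^ 2 := by positivity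
  have := mul_le_mul_of_nonneg_left h7 hm2
  nlinarith

/-- All lifts, when the maximal family has `t ≤ m l` members and `x < m l`, `m < m₀`: `all_union` gives
`2 |U| ≤ m^2 baseB l`. Rank on `U`, `pattern_sum`, `recover_count`, `two_mul_src_le`:
at most `(64 m₀^2 √B)^m` restrictions to `C`. -/
theorem all_count (hG : GoodDensity n q H) (hs : Std n q l lam) (hlam : l ≤ 2 * lam)
    (hb : MinBlock F l lam K C) (h2 : 2 ≤ C.card) {m₀ : ℕ} (hm₁ : (tch F K C).card ≤ m₀)
    (S 𝓜 : Finset (α → V)) (hsub : 𝓜 ⊆ S) (hemb : ∀ φ ∈ S, IsEmb F H φ)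
    (hag : ∀ φ ∈ S, ∀ φ' ∈ S, ∀ x ∈ K \ C, φ x = φ' x)
    (hdisj : ∀ φ ∈ 𝓜, ∀ φ' ∈ 𝓜, φ ≠ φ' → ∀ x ∈ C, ∀ y ∈ C, φ x ≠ φ' y)
    (hcov : ∀ φ ∈ S, ∃ x ∈ C, ∃ φ' ∈ 𝓜, ∃ y ∈ C, φ x = φ' y)
    (ht : (𝓜.card : ℝ) ≤ ((tch F K C).card : ℝ) * l)
    (hx : (n : ℝ) ^ C.card * q ^ (tch F K C).card ≤ ((tch F K C).card : ℝ) * l) :
    ((S.image (proj C)).card : ℝ) ≤
      (64 * (m₀ : ℝ) ^ 2 * Real.sqrt (baseB l)) ^ (tch F K C).card := by
  have hl := hs.l1
  have hCK := hb.sub
  have hcard : (C.card : ℝ) ≤ 2 * ((tch F K C).card : ℝ) :=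
    hb.card_le h2 (Finset.Subset.refl _) hl hs.lam_le
  have hm1 : 1 ≤ (tch F K C).card := by
    have h3 : (2 : ℝ) ≤ C.card := by exact_mod_cast h2
    have h' : (1 : ℝ) ≤ ((tch F K C).card : ℝ) := by linarith
    exact_mod_cast h'
  have hCm : C.card ≤ 2 * (tch F K C).card := by exact_mod_cast hcard
  have hmR : (1 : ℝ) ≤ ((tch F K C).card : ℝ) := by exact_mod_cast hm1
  have hm0R : ((tch F K C).card : ℝ) ≤ m₀ := by exact_mod_cast hm₁
  have hm₀1 : (1 : ℝ) ≤ m₀ := hmR.trans hm0R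
  -- the union
  have hUe : ∀ e ∈ S.biUnion (tchIm F K C), e ∈ H.edgeSet := by
    have h3 := union_edges S hemb hCK (∅ : Finset (Sym2 V)) (by simp)
    intro e he
    exact h3 e (by simpa using he)
  have hall := all_union hG hs hb h2 S 𝓜 hsub hemb hag hdisj hcov
  have hval : Real.exp ((C.card : ℝ) * l - ((tch F K C).card : ℝ) * lam) ≤
      ((tch F K C).card : ℝ) * l := by
    rw [← x_eq_exp hs]
    exact hx
  have hatt : ((att F K C).card : ℝ) ≤ ((tch F K C).card : ℝ) := by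
    exact_mod_cast att_card_le hCK
  have hnum := all_union_num hl hmR hatt (Nat.cast_nonneg _) ht hval hall
  have hB1 : 0 ≤ baseB l := by
    unfold baseB
    positivity
  have hvsU : (((vs (S.biUnion (tchIm F K C))).card : ℕ) : ℝ) ≤ (m₀ : ℝ) ^ 2 * baseB l := by
    have h3 : (((vs (S.biUnion (tchIm F K C))).card : ℕ) : ℝ) ≤
        2 * (((S.biUnion (tchIm F K C)).card : ℕ) : ℝ) := by
      exact_mod_cast vs_card_le _
    have h4 : ((tch F K C).card : ℝ) ^ 2 * baseB l ≤ (m₀ : ℝ) ^ 2 * baseB l := by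
      gcongr
    linarith
  obtain ⟨r, hr⟩ := exists_rank hG hs hlam _ hUe
  have hsq0 : 0 ≤ Real.sqrt (baseB l) := Real.sqrt_nonneg _
  have hN0 : (0 : ℝ) ≤ 16 ^ (tch F K C).card * ((m₀ : ℝ) ^ 2) ^ (tch F K C).card *
      Real.sqrt (baseB l) ^ (tch F K C).card := by positivity
  have hmain := pattern_sum (Q := C) hCK hr.inj S hemb hN0 ?_
  · calc ((S.image (proj C)).card : ℝ)
        ≤ 4 ^ (tch F K C).card * (16 ^ (tch F K C).card * ((m₀ : ℝ) ^ 2) ^ (tch F K C).card *
            Real.sqrt (baseB l) ^ (tch F K C).card) := hmain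
      _ = (64 * (m₀ : ℝ) ^ 2 * Real.sqrt (baseB l)) ^ (tch F K C).card := by
          rw [mul_pow, mul_pow, show (64 : ℝ) = 4 * 16 by norm_num, mul_pow]
          ring
  · intro π S' hS' hpat
    rcases S'.eq_empty_or_nonempty with rfl | ⟨φ, hφ⟩
    · simpa using hN0
    have hemb' : ∀ φ ∈ S', IsEmb F H φ := fun φ h => hemb φ (hS' h)
    have hj := two_mul_src_le hs hb h2 (Finset.Subset.refl C) hr.inj (hemb' φ hφ).1 (hpat φ hφ)
    have hag' : ∀ φ ∈ S', ∀ φ' ∈ S', ∀ x ∈ att F K C, φ x = φ' x := by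
      intro φ hφ φ' hφ' x hx'
      obtain ⟨h3, h4, _⟩ := mem_att.1 hx'
      exact hag φ (hS' hφ) φ' (hS' hφ') x (Finset.mem_sdiff.2 ⟨h3, h4⟩)
    have hSU : ∀ φ ∈ S', tchIm F K C φ ⊆ S.biUnion (tchIm F K C) := fun φ h =>
      Finset.subset_biUnion_of_mem (tchIm F K C) (hS' h)
    have hvs : ∀ φ ∈ S', ∀ y ∈ Src C π, φ y ∈ vs (S.biUnion (tchIm F K C)) := by
      intro φ hφ y hy
      have hyC : y ∈ C := (Finset.mem_filter.1 hy).1
      have hne := hb.single_neg h2 hyC
      have hne' : (tch F K {y}).Nonempty := by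
        rw [Finset.nonempty_iff_ne_empty]
        intro h0
        rw [h0] at hne
        simp at hne
        linarith
      obtain ⟨e, he⟩ := hne'
      have heC : e ∈ tch F K C :=
        tch_mono (Finset.singleton_subset_iff.2 hyC) hCK he
      have himg : Sym2.map φ e ∈ S.biUnion (tchIm F K C) :=
        hSU φ hφ (Finset.mem_image_of_mem _ heC)
      have hyK : ({y} : Finset α) ⊆ K := (Finset.singleton_subset_iff.2 hyC).trans hCK
      unfold vs
      refine Finset.mem_biUnion.2 ⟨Sym2.map φ e, himg, ?_⟩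
      rw [Sym2.mem_toFinset]
      induction e using Sym2.ind with
      | _ u v =>
        obtain ⟨_, _, _, h4⟩ := (mem_tch_pair hyK).1 he
        simp only [Sym2.map_mk, Sym2.mem_iff]
        rcases h4 with h4 | h4
        · left
          rw [Finset.mem_singleton.1 h4]
        · right
          rw [Finset.mem_singleton.1 h4]
    have hrec := recover_count (Q := C) hCK hr (Finset.Subset.refl _) S' hemb' hag' hSU hpat hvs
    refine hrec.trans ?_
    have hjm : (Src C π).card ≤ (tch F K C).card := by omega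
    have h4 : (4 : ℝ) ^ C.card ≤ 16 ^ (tch F K C).card := by
      calc (4 : ℝ) ^ C.card ≤ 4 ^ (2 * (tch F K C).card) :=
            pow_le_pow_right₀ (by norm_num) hCm
        _ = 16 ^ (tch F K C).card := by
            rw [pow_mul]
            norm_num
    have h5 : (((vs (S.biUnion (tchIm F K C))).card : ℕ) : ℝ) ^ (Src C π).card ≤
        ((m₀ : ℝ) ^ 2) ^ (tch F K C).card * Real.sqrt (baseB l) ^ (tch F K C).card := by
      calc (((vs (S.biUnion (tchIm F K C))).card : ℕ) : ℝ) ^ (Src C π).card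
          ≤ ((m₀ : ℝ) ^ 2 * baseB l) ^ (Src C π).card :=
            pow_le_pow_left₀ (Nat.cast_nonneg _) hvsU _
        _ = ((m₀ : ℝ) ^ 2) ^ (Src C π).card * baseB l ^ (Src C π).card := mul_pow _ _ _
        _ ≤ _ := by
            refine mul_le_mul ?_ (baseB_pow_le hl hj) (by positivity) (by positivity)
            refine pow_le_pow_right₀ ?_ hjm
            have : (1 : ℝ) ≤ (m₀ : ℝ) ^ 2 := one_le_pow₀ hm₀1
            exact this
    calc (((vs (S.biUnion (tchIm F K C))).card : ℕ) : ℝ) ^ (Src C π).card * 4 ^ C.card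
        ≤ (((m₀ : ℝ) ^ 2) ^ (tch F K C).card * Real.sqrt (baseB l) ^ (tch F K C).card) *
            16 ^ (tch F K C).card := mul_le_mul h5 h4 (by positivity) (by positivity)
      _ = _ := by ring

end Vale.Agent.Lib.P064H
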