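import Vale.Agent.Lib.P064H.AllCount

/-!
Blocks with at least two vertices.
-/

open Finset

namespace Vale.Agent.Lib.P064H

open Vale.Agent.Lib.P064 Vale.Agent.Lib.P064E
open scoped Classical

variable {V α : Type} [Fintype V] [Fintype α] {F : SimpleGraph α} {H : SimpleGraph V} {n : ℕ}
  {q l lam : ℝ} {K C : Finset α}

/-- Three numeric consequences of `Lam₀ m₀ l ≤ Λ`. -/
lemma lam_facts {m₀ : ℕ} (hm₀ : 1 ≤ m₀) (hl : 1 ≤ l) {Λ : ℝ} (hΛ : Lam₀ m₀ l ≤ Λ) :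
    1 ≤ l ^ (1 / (m₀ : ℝ)) ∧
    4 * Real.exp 62 * Real.sqrt (baseB l) * l ^ (1 / (m₀ : ℝ)) ≤ Λ ∧
    4 * Real.exp 62 * Real.sqrt (baseB l) ≤ Λ ∧
    64 * Real.exp 1 * (m₀ : ℝ) ^ 2 * Real.sqrt (baseB l) ≤ Λ := by
  have hr1 : 1 ≤ l ^ (1 / (m₀ : ℝ)) := Real.one_le_rpow hl (by positivity)
  have hm : (1 : ℝ) ≤ (m₀ : ℝ) ^ 2 := one_le_pow₀ (by exact_mod_cast hm₀)
  have hR : 0 ≤ Real.sqrt (baseB l) := Real.sqrt_nonneg _
  have h8 : Real.exp 70 = Real.exp 62 * Real.exp 8 := by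
    rw [← Real.exp_add]
    norm_num
  have h9 : Real.exp 70 = Real.exp 1 * Real.exp 69 := by
    rw [← Real.exp_add]
    norm_num
  have he8 : (4 : ℝ) ≤ Real.exp 8 := by
    have := Real.add_one_le_exp (8 : ℝ)
    linarith
  have he69 : (64 : ℝ) ≤ Real.exp 69 := by
    have := Real.add_one_le_exp (69 : ℝ)
    linarith
  have he62 : 0 < Real.exp 62 := Real.exp_pos _
  have he1 : 0 < Real.exp 1 := Real.exp_pos _
  have h1 : 4 * Real.exp 62 ≤ Real.exp 70 := by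
    rw [h8]
    nlinarith
  have h2 : 64 * Real.exp 1 ≤ Real.exp 70 := by
    rw [h9]
    nlinarith
  unfold Lam₀ at hΛ
  have hE : 0 < Real.exp 70 := Real.exp_pos _
  have hB : 4 * Real.exp 62 * Real.sqrt (baseB l) * l ^ (1 / (m₀ : ℝ)) ≤ Λ := by
    refine le_trans ?_ hΛ
    have h3 : 4 * Real.exp 62 * Real.sqrt (baseB l) ≤ Real.exp 70 * (m₀ : ℝ) ^ 2 * Real.sqrt (baseB l) := by
      refine mul_le_mul_of_nonneg_right ?_ hR
      nlinarith
    exact mul_le_mul_of_nonneg_right h3 (by linarith)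
  refine ⟨hr1, hB, ?_, ?_⟩
  · refine le_trans ?_ hB
    have h4 : 0 ≤ 4 * Real.exp 62 * Real.sqrt (baseB l) := by positivity
    nlinarith
  · refine le_trans ?_ hΛ
    have h5 : 64 * Real.exp 1 * (m₀ : ℝ) ^ 2 ≤ Real.exp 70 * (m₀ : ℝ) ^ 2 :=
      mul_le_mul_of_nonneg_right h2 (by positivity)
    have h6 : 64 * Real.exp 1 * (m₀ : ℝ) ^ 2 * Real.sqrt (baseB l) ≤
        Real.exp 70 * (m₀ : ℝ) ^ 2 * Real.sqrt (baseB l) := mul_le_mul_of_nonneg_right h5 hR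
    have h7 : 0 ≤ Real.exp 70 * (m₀ : ℝ) ^ 2 * Real.sqrt (baseB l) := by positivity
    nlinarith

/-- Case `t ≤ e^2 x`. -/
lemma num_A {m : ℕ} (hm : 1 ≤ m) {R Λ : ℝ} (hR : 0 ≤ R) (h : 4 * Real.exp 62 * R ≤ Λ) :
    Real.exp 2 * (4 * Real.exp 60 * R) ^ m ≤ Λ ^ m := by
  have h1 : Real.exp 2 ≤ Real.exp 2 ^ m := le_self_pow₀ (Real.one_le_exp (by norm_num)) (by omega)
  have h2 : 0 ≤ (4 * Real.exp 60 * R) ^ m := by positivity
  calc Real.exp 2 * (4 * Real.exp 60 * R) ^ m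
      ≤ Real.exp 2 ^ m * (4 * Real.exp 60 * R) ^ m := mul_le_mul_of_nonneg_right h1 h2
    _ = (4 * Real.exp 62 * R) ^ m := by
        rw [← mul_pow]
        congr 1
        rw [show (62 : ℝ) = 2 + 60 by norm_num, Real.exp_add]
        ring
    _ ≤ Λ ^ m := pow_le_pow_left₀ (by positivity) h m

/-- Case `t ≤ m l`, `m ≥ m₀`. -/
lemma num_B {m m₀ : ℕ} (hm₀ : 1 ≤ m₀) (hmm : m₀ ≤ m) (hl : 1 ≤ l) {R Λ : ℝ} (hR : 0 ≤ R)
    (hr1 : 1 ≤ l ^ (1 / (m₀ : ℝ)))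
    (h : 4 * Real.exp 62 * R * l ^ (1 / (m₀ : ℝ)) ≤ Λ) :
    (m : ℝ) * l * Real.exp (m : ℝ) * (4 * Real.exp 60 * R) ^ m ≤ Λ ^ m := by
  have hl0 : 0 < l := by linarith
  have hm₀R : (0 : ℝ) < m₀ := by exact_mod_cast hm₀
  have h1 : (m : ℝ) ≤ Real.exp (m : ℝ) := by
    have := Real.add_one_le_exp (m : ℝ)
    linarith
  have h2 : l ≤ (l ^ (1 / (m₀ : ℝ))) ^ m := by
    rw [← Real.rpow_natCast, ← Real.rpow_mul hl0.le]
    have h3 : (1 : ℝ) ≤ 1 / (m₀ : ℝ) * (m : ℝ) := by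
      have h4 : (m₀ : ℝ) ≤ m := by exact_mod_cast hmm
      rw [div_mul_eq_mul_div, one_mul, le_div_iff₀ hm₀R]
      linarith
    calc l = l ^ (1 : ℝ) := (Real.rpow_one l).symm
      _ ≤ _ := Real.rpow_le_rpow_of_exponent_le hl h3
  have hexp : Real.exp (m : ℝ) = Real.exp 1 ^ m := by
    rw [← Real.exp_nat_mul, mul_one]
  have h5 : 0 ≤ (4 * Real.exp 60 * R) ^ m := by positivity
  have hr0 : 0 ≤ (l ^ (1 / (m₀ : ℝ))) := by linarith
  calc (m : ℝ) * l * Real.exp (m : ℝ) * (4 * Real.exp 60 * R) ^ m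
      ≤ Real.exp (m : ℝ) * (l ^ (1 / (m₀ : ℝ))) ^ m * Real.exp (m : ℝ) *
          (4 * Real.exp 60 * R) ^ m := by
        refine mul_le_mul_of_nonneg_right ?_ h5
        refine mul_le_mul_of_nonneg_right ?_ (Real.exp_pos _).le
        exact mul_le_mul h1 h2 hl0.le (Real.exp_pos _).le
    _ = (4 * Real.exp 62 * R * l ^ (1 / (m₀ : ℝ))) ^ m := by
        rw [hexp, ← mul_pow, ← mul_pow, ← mul_pow]
        congr 1
        rw [show (62 : ℝ) = 1 + (1 + 60) by norm_num, Real.exp_add, Real.exp_add]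
        ring
    _ ≤ Λ ^ m := pow_le_pow_left₀ (by positivity) h m

/-- Case `t ≤ m l`, `m < m₀`. -/
lemma num_C {m : ℕ} {A Λ x : ℝ} (hA : 0 ≤ A) (hx : Real.exp (-(m : ℝ)) ≤ x)
    (h : 64 * Real.exp 1 * A ≤ Λ) : (64 * A) ^ m ≤ x * Λ ^ m := by
  have h1 : (64 * Real.exp 1 * A) ^ m ≤ Λ ^ m := pow_le_pow_left₀ (by positivity) h m
  have h2 : (64 * Real.exp 1 * A) ^ m = (64 * A) ^ m * Real.exp (m : ℝ) := by
    rw [show 64 * Real.exp 1 * A = (64 * A) * Real.exp 1 by ring, mul_pow, ← Real.exp_nat_mul,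
      mul_one]
  have h3 : (64 * A) ^ m = Real.exp (-(m : ℝ)) * (64 * Real.exp 1 * A) ^ m := by
    rw [h2, mul_comm ((64 * A) ^ m), ← mul_assoc, ← Real.exp_add]
    simp
  rw [h3]
  have h4 : 0 ≤ (64 * Real.exp 1 * A) ^ m := by positivity
  have h5 : 0 ≤ x := le_trans (Real.exp_pos _).le hx
  exact mul_le_mul hx h1 h4 h5

/-- A block with at least two vertices. Maximal family `𝓜` (`exists_max_family`), `t = |𝓜|`, `family_dichotomy`.
`t ≤ e^2 x`: `card_le_sum_overlap`, `overlap_count`. Else `t ≤ |att| l ≤ m l`, `x < m l`, `exp (-m) ≤ x`.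
If `m ≥ m₀`: `card_le_sum_overlap`, `overlap_count`, `m ≤ e^m`, `l ≤ (l^(1/m₀))^m`. If `m < m₀`: `all_count`. -/
theorem block_two (hG : GoodDensity n q H) (hs : Std n q l lam) (hlam : l ≤ 2 * lam)
    (hV : Fintype.card V ≤ n) (hb : MinBlock F l lam K C) (h2 : 2 ≤ C.card) {m₀ : ℕ} (hm₀ : 1 ≤ m₀)
    {Λ : ℝ} (hΛ : Lam₀ m₀ l ≤ Λ) : BlockGoal F H n q Λ K C := by
  intro S hemb hag
  have hl := hs.l1
  have hq0 := hs.q0
  have hCK : C ⊆ K := hb.sub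
  obtain ⟨hr1, hB, hA, hC'⟩ := lam_facts hm₀ hl hΛ
  set m := (tch F K C).card with hmdef
  set R := Real.sqrt (baseB l) with hRdef
  have hR : 0 ≤ R := Real.sqrt_nonneg _
  have hΛ0 : 0 ≤ Λ := le_trans (by positivity) hA
  have hn0 : (0 : ℝ) < n := by
    have := hs.n1
    exact_mod_cast this
  set x := (n : ℝ) ^ C.card * q ^ m with hx
  have hx0 : 0 ≤ x := by positivity
  rcases S.eq_empty_or_nonempty with rfl | hS
  · simp only [Finset.image_empty, Finset.card_empty, Nat.cast_zero]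
    positivity
  have hK : ((S.image (proj K)).card : ℝ) ≤ ((S.image (proj C)).card : ℝ) := by
    exact_mod_cast card_image_proj_K_le hCK S hag
  refine hK.trans ?_
  have hcard : (C.card : ℝ) ≤ 2 * (m : ℝ) := hb.card_le h2 (Finset.Subset.refl _) hl hs.lam_le
  have hm1 : 1 ≤ m := by
    have h3 : (2 : ℝ) ≤ C.card := by exact_mod_cast h2
    have h' : (1 : ℝ) ≤ (m : ℝ) := by linarith
    exact_mod_cast h'
  obtain ⟨𝓜, hsub, h𝓜, hdisj, hcov⟩ := Vale.Agent.Lib.P064.exists_max_family S hS hb.ne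
  have hN0 : (0 : ℝ) ≤ (4 * Real.exp 60 * R) ^ m := by positivity
  have hagatt : ∀ φ ∈ S, ∀ φ' ∈ S, ∀ x ∈ att F K C, φ x = φ' x := by
    intro φ hφ φ' hφ' y hy
    obtain ⟨h3, h4, _⟩ := mem_att.1 hy
    exact hag φ hφ φ' hφ' y (Finset.mem_sdiff.2 ⟨h3, h4⟩)
  have hov := card_le_sum_overlap (C := C) S 𝓜 hcov hN0 (fun φ₁ hφ₁ =>
    overlap_count hG hs hlam hb h2 hV _
      (fun φ hφ => hemb φ (Finset.mem_filter.1 hφ).1) φ₁ (hemb φ₁ (hsub hφ₁))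
      (fun φ hφ y hy => hagatt φ (Finset.mem_filter.1 hφ).1 φ₁ (hsub hφ₁) y hy)
      (fun φ hφ => (Finset.mem_filter.1 hφ).2))
  have ht0 : (0 : ℝ) ≤ (𝓜.card : ℝ) := Nat.cast_nonneg _
  have hdich := family_dichotomy hG hs hCK hb.ne hm1 𝓜 h𝓜 (fun φ hφ => hemb φ (hsub hφ))
    (fun φ hφ φ' hφ' => hag φ (hsub hφ) φ' (hsub hφ')) hdisj
  have hcaseA : (𝓜.card : ℝ) ≤ Real.exp 2 * x →
      ((S.image (proj C)).card : ℝ) ≤ x * Λ ^ m := by
    intro ht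
    refine hov.trans ?_
    calc (𝓜.card : ℝ) * (4 * Real.exp 60 * R) ^ m
        ≤ (Real.exp 2 * x) * (4 * Real.exp 60 * R) ^ m := mul_le_mul_of_nonneg_right ht hN0
      _ = x * (Real.exp 2 * (4 * Real.exp 60 * R) ^ m) := by ring
      _ ≤ x * Λ ^ m := mul_le_mul_of_nonneg_left (num_A hm1 hR hA) hx0
  rcases hdich with ht | ht
  · have hatt : ((att F K C).card : ℝ) ≤ (m : ℝ) := by
      exact_mod_cast att_card_le hCK
    have hl0 : 0 ≤ l := by linarith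
    have ht' : (𝓜.card : ℝ) ≤ (m : ℝ) * l := ht.trans (mul_le_mul_of_nonneg_right hatt hl0)
    by_cases hxx : (m : ℝ) * l ≤ x
    · apply hcaseA
      have he2 : (1 : ℝ) ≤ Real.exp 2 := Real.one_le_exp (by norm_num)
      nlinarith
    · push Not at hxx
      have hxge : Real.exp (-(m : ℝ)) ≤ x := block_x_ge hs hb
      by_cases hmb : m₀ ≤ m
      · refine hov.trans ?_
        have h1x : 1 ≤ x * Real.exp (m : ℝ) := by
          have h3 : Real.exp (-(m : ℝ)) * Real.exp (m : ℝ) ≤ x * Real.exp (m : ℝ) :=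
            mul_le_mul_of_nonneg_right hxge (Real.exp_pos _).le
          rw [← Real.exp_add] at h3
          simpa using h3
        have hml0 : 0 ≤ (m : ℝ) * l := by positivity
        calc (𝓜.card : ℝ) * (4 * Real.exp 60 * R) ^ m
            ≤ ((m : ℝ) * l) * (4 * Real.exp 60 * R) ^ m := mul_le_mul_of_nonneg_right ht' hN0
          _ ≤ ((m : ℝ) * l * (x * Real.exp (m : ℝ))) * (4 * Real.exp 60 * R) ^ m := by
              refine mul_le_mul_of_nonneg_right ?_ hN0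
              nlinarith
          _ = x * ((m : ℝ) * l * Real.exp (m : ℝ) * (4 * Real.exp 60 * R) ^ m) := by ring
          _ ≤ x * Λ ^ m := mul_le_mul_of_nonneg_left (num_B hm₀ hmb hl hR hr1 hB) hx0
      · push Not at hmb
        have hall := all_count hG hs hlam hb h2 (m₀ := m₀) hmb.le S 𝓜 hsub hemb hag hdisj hcov ht'
          hxx.le
        refine hall.trans ?_
        have hA2 : 0 ≤ (m₀ : ℝ) ^ 2 * R := by positivity
        have h64 : 64 * (m₀ : ℝ) ^ 2 * R = 64 * ((m₀ : ℝ) ^ 2 * R) := by ring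
        rw [h64]
        refine num_C hA2 hxge ?_
        calc 64 * Real.exp 1 * ((m₀ : ℝ) ^ 2 * R) = 64 * Real.exp 1 * (m₀ : ℝ) ^ 2 * R := by ring
          _ ≤ Λ := hC'
  · exact hcaseA ht

end Vale.Agent.Lib.P064H
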