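import Vale.Agent.Lib.P064H.BlockOne
import Vale.Agent.Lib.P064H.BlockTwo

/-!
All blocks.
-/

open Finset

namespace Vale.Agent.Lib.P064H

open Vale.Agent.Lib.P064 Vale.Agent.Lib.P064E
open scoped Classical

variable {V : Type} [Fintype V] {H : SimpleGraph V} {n : ℕ} {q l lam : ℝ}

/-- Numeric facts: `Lam₀ m₀ l` is at least `e^2` and at least `2 e √l`. -/
lemma lam₀_ge (hl : 1 ≤ l) {m₀ : ℕ} (hm₀ : 1 ≤ m₀) :
    Real.exp 2 ≤ Lam₀ m₀ l ∧ 2 * Real.exp 1 * Real.sqrt l ≤ Lam₀ m₀ l := by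
  have hr1 : 1 ≤ l ^ (1 / (m₀ : ℝ)) := Real.one_le_rpow hl (by positivity)
  have hm : (1 : ℝ) ≤ (m₀ : ℝ) ^ 2 := one_le_pow₀ (by exact_mod_cast hm₀)
  have hsc : (1 : ℝ) ≤ scale l := by
    have h1 : 1 ≤ scale l := by
      unfold scale
      omega
    exact_mod_cast h1
  have hlB : l ≤ baseB l := by
    unfold baseB
    nlinarith
  have hsq : Real.sqrt l ≤ Real.sqrt (baseB l) := Real.sqrt_le_sqrt hlB
  have hsl : 1 ≤ Real.sqrt l := by
    rw [Real.one_le_sqrt]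
    exact hl
  have hE : 0 < Real.exp 70 := Real.exp_pos _
  have h1 : Real.exp 70 * Real.sqrt l ≤ Lam₀ m₀ l := by
    unfold Lam₀
    have h3 : Real.exp 70 * Real.sqrt l ≤ Real.exp 70 * (m₀ : ℝ) ^ 2 * Real.sqrt (baseB l) := by
      calc Real.exp 70 * Real.sqrt l ≤ Real.exp 70 * ((m₀ : ℝ) ^ 2 * Real.sqrt (baseB l)) := by
            refine mul_le_mul_of_nonneg_left ?_ hE.le
            have h4 : 0 ≤ Real.sqrt (baseB l) := Real.sqrt_nonneg _
            nlinarith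
        _ = _ := by ring
    have h5 : 0 ≤ Real.exp 70 * (m₀ : ℝ) ^ 2 * Real.sqrt (baseB l) := by positivity
    nlinarith
  have h70 : Real.exp 70 = Real.exp 1 * Real.exp 69 := by
    rw [← Real.exp_add]
    norm_num
  have he69 : (2 : ℝ) ≤ Real.exp 69 := by
    have := Real.add_one_le_exp (69 : ℝ)
    linarith
  have he1 : 0 < Real.exp 1 := Real.exp_pos _
  constructor
  · have h2 : Real.exp 2 ≤ Real.exp 70 := Real.exp_le_exp.2 (by norm_num)
    nlinarith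
  · refine le_trans ?_ h1
    refine mul_le_mul_of_nonneg_right ?_ (by linarith)
    rw [h70]
    nlinarith

/-- All blocks. -/
theorem block_all {α : Type} [Fintype α] {F : SimpleGraph α} {K C : Finset α}
    (hG : GoodDensity n q H) (hs : Std n q l lam) (hlam : l ≤ 2 * lam)
    (hV : Fintype.card V ≤ n) (hb : MinBlock F l lam K C) {m₀ : ℕ} (hm₀ : 1 ≤ m₀) {Λ : ℝ}
    (hΛ : Lam₀ m₀ l ≤ Λ) (hΛ3 : l ≤ Λ * ((n : ℝ) * q)) :
    BlockGoal F H n q Λ K C := by
  have hpos : 0 < C.card := Finset.card_pos.2 hb.ne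
  by_cases h2 : 2 ≤ C.card
  · exact block_two hG hs hlam hV hb h2 hm₀ hΛ
  · have h1 : C.card = 1 := by omega
    by_cases hm : (tch F K C).card = 0
    · exact block_m_zero hs hV hb hm
    · obtain ⟨h3, h4⟩ := lam₀_ge hs.l1 hm₀
      exact block_single hG hs hb h1 (Nat.one_le_iff_ne_zero.2 hm) (h3.trans hΛ) (h4.trans hΛ) hΛ3

end Vale.Agent.Lib.P064H
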