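import Vale.Agent.Lib.P064H.Cover

/-!
Blocks with one vertex.
-/

open Finset

namespace Vale.Agent.Lib.P064H

open Vale.Agent.Lib.P064 Vale.Agent.Lib.P064E
open scoped Classical

variable {V α : Type} [Fintype V] [Fintype α] {F : SimpleGraph α} {H : SimpleGraph V} {n : ℕ}
  {q l lam : ℝ} {K C : Finset α}

/-- With one vertex a restriction to `C` is determined by the image of the vertex. -/
lemma image_proj_one {y : α} (hCy : C = {y}) (S : Finset (α → V)) :
    (S.image (proj C)).card ≤ (S.image fun φ => φ y).card := by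
  have h2 : S.image (proj C) ⊆ (S.image fun φ => φ y).image
      (fun v => fun z => if z ∈ C then some v else none) := by
    intro ψ hψ
    obtain ⟨φ, hφ, rfl⟩ := Finset.mem_image.1 hψ
    refine Finset.mem_image.2 ⟨φ y, Finset.mem_image_of_mem _ hφ, ?_⟩
    funext z
    unfold proj
    by_cases hz : z ∈ C
    · rw [if_pos hz, if_pos hz]
      have hzy : z = y := by
        rw [hCy] at hz
        exact Finset.mem_singleton.1 hz
      rw [hzy]
    · rw [if_neg hz, if_neg hz]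
  exact (Finset.card_le_card h2).trans Finset.card_image_le

/-- `m = 0`: one vertex, at most `n` images. (`MinBlock.card_eq_one_of_m_zero`.) -/
theorem block_m_zero (hs : Std n q l lam) (hV : Fintype.card V ≤ n) (hb : MinBlock F l lam K C)
    (hm : (tch F K C).card = 0) {Λ : ℝ} : BlockGoal F H n q Λ K C := by
  intro S _ hag
  have h1 : C.card = 1 := hb.card_eq_one_of_m_zero hs.l1 hs.lam1 hm
  obtain ⟨y, hCy⟩ := Finset.card_eq_one.1 h1
  have hKC := card_image_proj_K_le hb.sub S hag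
  have h2 := image_proj_one hCy S
  have h3 : (S.image fun φ => φ y).card ≤ (Finset.univ : Finset V).card :=
    Finset.card_le_card (Finset.subset_univ _)
  rw [Finset.card_univ] at h3
  have h4 : (S.image (proj K)).card ≤ n := hKC.trans (h2.trans (h3.trans hV))
  rw [hm, h1]
  simp only [pow_one, pow_zero, mul_one]
  exact_mod_cast h4

/-- `m l ≤ (2 √l)^m` for `m ≥ 2`. -/
lemma mul_le_pow_sqrt (hl : 1 ≤ l) {m : ℕ} (hm : 2 ≤ m) :
    (m : ℝ) * l ≤ (2 * Real.sqrt l) ^ m := by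
  have h1 : 1 ≤ Real.sqrt l := by
    rw [Real.one_le_sqrt]
    exact hl
  have h2 : l ≤ Real.sqrt l ^ m := by
    calc l = Real.sqrt l ^ 2 := (Real.sq_sqrt (by linarith)).symm
      _ ≤ _ := pow_le_pow_right₀ h1 hm
  have h3 : (m : ℝ) ≤ 2 ^ m := by
    have : m < 2 ^ m := Nat.lt_two_pow_self
    exact_mod_cast this.le
  rw [mul_pow]
  exact mul_le_mul h3 h2 (by linarith) (by positivity)

/-- One vertex, with `m ≥ 1` edges. The lifts are pairwise disjoint on `C` (one per image), so the count is `t`.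
`t ≤ e^2 x`: fine since `e^2 ≤ Λ`. `t ≤ |att| l ≤ m l`: if `m = 1`, `l ≤ Λ x`;
if `m ≥ 2`, `m l ≤ (2 √l)^m` and `1 ≤ x e^m`. -/
theorem block_single (hG : GoodDensity n q H) (hs : Std n q l lam)
    (hb : MinBlock F l lam K C) (h1 : C.card = 1) (hm : 1 ≤ (tch F K C).card) {Λ : ℝ}
    (hΛ1 : Real.exp 2 ≤ Λ) (hΛ2 : 2 * Real.exp 1 * Real.sqrt l ≤ Λ)
    (hΛ3 : l ≤ Λ * ((n : ℝ) * q)) : BlockGoal F H n q Λ K C := by
  intro S hemb hag
  have hq0 := hs.q0
  have hl1 := hs.l1
  have hl0 : 0 ≤ l := by linarith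
  have hn1 : (1 : ℝ) ≤ n := by exact_mod_cast hs.n1
  have hn0 : (0 : ℝ) < n := by linarith
  have hexp1 : (1 : ℝ) ≤ Real.exp 2 := Real.one_le_exp (by norm_num)
  have hΛ1' : 1 ≤ Λ := by linarith
  have hΛ0 : 0 < Λ := by linarith
  set m := (tch F K C).card with hmdef
  set x := (n : ℝ) ^ C.card * q ^ m with hx
  have hx0 : 0 ≤ x := by positivity
  have hgoal0 : 0 ≤ x * Λ ^ m := by positivity
  have hKC : ((S.image (proj K)).card : ℝ) ≤ ((S.image (proj C)).card : ℝ) := by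
    exact_mod_cast card_image_proj_K_le hb.sub S hag
  refine le_trans hKC ?_
  by_cases hS : S.Nonempty
  swap
  · rw [Finset.not_nonempty_iff_eq_empty] at hS
    subst hS
    simpa using hgoal0
  obtain ⟨y, hCy⟩ := Finset.card_eq_one.1 h1
  obtain ⟨𝓜, hsub, h𝓜, hdisj, hcov⟩ := Vale.Agent.Lib.P064.exists_max_family S hS hb.ne
  have hN : ∀ φ₁ ∈ 𝓜,
      (((S.filter fun φ => ∃ x ∈ C, ∃ y ∈ C, φ x = φ₁ y).image (proj C)).card : ℝ) ≤ 1 := by
    intro φ₁ _
    have h2 : ((S.filter fun φ => ∃ x ∈ C, ∃ y ∈ C, φ x = φ₁ y).image (proj C)).card ≤ 1 := by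
      rw [Finset.card_le_one]
      intro ψ hψ ψ' hψ'
      obtain ⟨φ, hφ, rfl⟩ := Finset.mem_image.1 hψ
      obtain ⟨φ', hφ', rfl⟩ := Finset.mem_image.1 hψ'
      obtain ⟨x₁, hx₁, y₁, hy₁, h3⟩ := (Finset.mem_filter.1 hφ).2
      obtain ⟨x₂, hx₂, y₂, hy₂, h4⟩ := (Finset.mem_filter.1 hφ').2
      rw [hCy, Finset.mem_singleton] at hx₁ hy₁ hx₂ hy₂
      rw [hx₁, hy₁] at h3
      rw [hx₂, hy₂] at h4
      funext z
      unfold proj
      by_cases hz : z ∈ C
      · rw [if_pos hz, if_pos hz]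
        have hzy : z = y := by
          rw [hCy] at hz
          exact Finset.mem_singleton.1 hz
        rw [hzy, h3, h4]
      · rw [if_neg hz, if_neg hz]
    exact_mod_cast h2
  have hcount := card_le_sum_overlap S 𝓜 hcov (N := 1) (by norm_num) hN
  rw [mul_one] at hcount
  refine le_trans hcount ?_
  have hdich := family_dichotomy hG hs hb.sub hb.ne hm 𝓜 h𝓜 (fun φ hφ => hemb φ (hsub hφ))
    (fun φ hφ φ' hφ' z hz => hag φ (hsub hφ) φ' (hsub hφ') z hz) hdisj
  have hatt : ((att F K C).card : ℝ) ≤ m := by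
    exact_mod_cast att_card_le hb.sub
  have hΛm : Λ ≤ Λ ^ m := le_self_pow₀ hΛ1' (by omega)
  rcases hdich with ht | ht
  · by_cases hm2 : 2 ≤ m
    · have htm : (𝓜.card : ℝ) ≤ (m : ℝ) * l := ht.trans (mul_le_mul_of_nonneg_right hatt hl0)
      have hxm : Real.exp (-(m : ℝ)) ≤ x := block_x_ge hs hb
      have h5 := mul_le_pow_sqrt hl1 hm2
      have hsq0 : 0 ≤ Real.sqrt l := Real.sqrt_nonneg _
      have h6 : (2 * Real.sqrt l) ^ m * Real.exp (-(m : ℝ)) ≤ (2 * Real.sqrt l) ^ m * x :=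
        mul_le_mul_of_nonneg_left hxm (by positivity)
      have h7 : (2 * Real.exp 1 * Real.sqrt l) ^ m ≤ Λ ^ m :=
        pow_le_pow_left₀ (by positivity) hΛ2 m
      have h8 : (2 * Real.exp 1 * Real.sqrt l) ^ m * Real.exp (-(m : ℝ)) =
          (2 * Real.sqrt l) ^ m := by
        have h9 : (2 * Real.exp 1 * Real.sqrt l) ^ m =
            (2 * Real.sqrt l) ^ m * Real.exp (m : ℝ) := by
          rw [show 2 * Real.exp 1 * Real.sqrt l = (2 * Real.sqrt l) * Real.exp 1 by ring, mul_pow,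
            ← Real.exp_nat_mul, mul_one]
        rw [h9, mul_assoc, ← Real.exp_add]
        simp
      -- `t ≤ m l ≤ (2√l)^m = (2e√l)^m e^{-m} ≤ Λ^m x`
      calc (𝓜.card : ℝ) ≤ (m : ℝ) * l := htm
        _ ≤ (2 * Real.sqrt l) ^ m := h5
        _ = (2 * Real.exp 1 * Real.sqrt l) ^ m * Real.exp (-(m : ℝ)) := h8.symm
        _ ≤ Λ ^ m * x := mul_le_mul h7 hxm (Real.exp_pos _).le (by positivity)
        _ = x * Λ ^ m := mul_comm _ _
    · have hm1' : m = 1 := by omega
      have h3 : (𝓜.card : ℝ) ≤ l := by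
        have h9 : ((att F K C).card : ℝ) ≤ 1 := by
          rw [hm1'] at hatt
          simpa using hatt
        nlinarith
      rw [hx, h1, hm1']
      simp only [pow_one]
      calc (𝓜.card : ℝ) ≤ l := h3
        _ ≤ Λ * ((n : ℝ) * q) := hΛ3
        _ = _ := by ring
  · refine le_trans ht ?_
    rw [mul_comm]
    refine mul_le_mul_of_nonneg_left ?_ hx0
    linarith

end Vale.Agent.Lib.P064H
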