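import Vale.Agent.Lib.P064H.BlockAll

/-!
The chain of blocks and the embedding bound.
-/

open Finset

namespace Vale.Agent.Lib.P064H

open Vale.Agent.Lib.P064 Vale.Agent.Lib.P064E
open scoped Classical

variable {V : Type} [Fintype V] {H : SimpleGraph V} {n : ℕ} {q l lam : ℝ}

/-- The number of embeddings of `F`, by induction on `K` along minimal blocks: for a nonempty family `S`
`|S.image (proj K)| ≤ n^|K| q^|eIn F K| Λ^|eIn F K|`, strong induction on `|K|`. `sv K K ≥ 0` by `density_log` on `φ(eIn F K)`;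
`exists_minBlock`; `card_image_proj_step_real` with `D = K \ C`, `D' = K`; `eIn F K = eIn F (K \ C) ⊔ tch F K C`. -/
theorem emb_chain {α : Type} [Fintype α] {F : SimpleGraph α}
    (hG : GoodDensity n q H) (hs : Std n q l lam) (hlam : l ≤ 2 * lam)
    (hV : Fintype.card V ≤ n) {m₀ : ℕ} (hm₀ : 1 ≤ m₀) {Λ : ℝ}
    (hΛ : Lam₀ m₀ l ≤ Λ) (hΛ3 : l ≤ Λ * ((n : ℝ) * q)) :
    ((emb F H).card : ℝ) ≤ ((n : ℝ) ^ Fintype.card α * q ^ (eIn F univ).card) *
      Λ ^ (eIn F univ).card := by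
  sorry

/-- The embedding bound, from `emb_chain`, `pow_le_exp_descFactorial` and `vertices_le_darts`. -/
theorem embBound_half (hG : GoodDensity n q H) (hs : Std n q l lam) (hlam : l ≤ 2 * lam)
    (hV : Fintype.card V ≤ n) {m₀ : ℕ} (hm₀ : 1 ≤ m₀) {Λ : ℝ}
    (hΛ : Lam₀ m₀ l ≤ Λ) (hΛ3 : l ≤ Λ * ((n : ℝ) * q)) :
    EmbBound n H (Real.exp 2 * q * Λ) := by
  sorry

end Vale.Agent.Lib.P064H
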