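import Vale.Agent.Lib.P064H.Defs

/-!
The closure of a set under the pattern, and the restricted parts.
-/

open Finset

namespace Vale.Agent.Lib.P064H

open Vale.Agent.Lib.P064E
open scoped Classical

variable {α : Type} [Fintype α]

/-- The smallest set between `Q₀` and `Q` closed under `π` (as far as `π` stays in `Q`). -/
noncomputable def piClosure (Q Q₀ : Finset α) (π : α → α) : Finset α :=
  Q.filter fun y => ∀ T : Finset α, Q₀ ⊆ T → (∀ x ∈ T, π x ∈ Q → π x ∈ T) → y ∈ T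

lemma piClosure_sub (Q Q₀ : Finset α) (π : α → α) : piClosure Q Q₀ π ⊆ Q :=
  Finset.filter_subset _ _

lemma sub_piClosure {Q Q₀ : Finset α} (π : α → α) (h : Q₀ ⊆ Q) : Q₀ ⊆ piClosure Q Q₀ π := by
  intro y hy
  exact Finset.mem_filter.2 ⟨h hy, fun T hT _ => hT hy⟩

lemma piClosure_closed {Q Q₀ : Finset α} {π : α → α} {x : α} (hx : x ∈ piClosure Q Q₀ π)
    (h : π x ∈ Q) : π x ∈ piClosure Q Q₀ π := by
  refine Finset.mem_filter.2 ⟨h, fun T hT hcl => ?_⟩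
  exact hcl x ((Finset.mem_filter.1 hx).2 T hT hcl) h

/-- `T ⊇ Q₀` closed on `T ∩ Z` contains `Z`. (Apply the definition to `T ∩ Z`.) -/
lemma piClosure_reach {Q Q₀ : Finset α} (hQ₀ : Q₀ ⊆ Q) {π : α → α} (T : Finset α) (h₀ : Q₀ ⊆ T)
    (hT : ∀ x ∈ T, x ∈ piClosure Q Q₀ π → π x ∈ Q → π x ∈ T) : piClosure Q Q₀ π ⊆ T := by
  intro y hy
  have h1 := (Finset.mem_filter.1 hy).2 (T ∩ piClosure Q Q₀ π)
    (Finset.subset_inter h₀ (sub_piClosure π hQ₀)) (by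
      intro x hx hxQ
      obtain ⟨hxT, hxZ⟩ := Finset.mem_inter.1 hx
      exact Finset.mem_inter.2 ⟨hT x hxT hxZ hxQ, piClosure_closed hxZ hxQ⟩)
  exact (Finset.mem_inter.1 h1).1

/-- The parts of a decomposition outside `Z ⊇ Q₀`: subsets `P \ Z`, nonempty ones. -/
noncomputable def cutParts (parts : Finset (Finset α)) (Z : Finset α) : Finset (Finset α) :=
  (parts.image fun P => P \ Z).filter fun P => P.Nonempty

/-- The properties of the cut parts. -/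
lemma cutParts_props {G : SimpleGraph α} {Q Q₀ Lf Z : Finset α} {s : ℕ} {p : α → α}
    {parts : Finset (Finset α)} (hd : TreeDec G Q s Q₀ Lf p parts) (h₀ : Q₀ ⊆ Z) (hZ : Z ⊆ Q) :
    (∀ P ∈ cutParts parts Z, P ⊆ Q \ Z ∧ P.Nonempty ∧ P.card ≤ s) ∧
    (∀ x ∈ Q \ Z, ∃ P ∈ cutParts parts Z, x ∈ P) ∧
    (∀ P ∈ cutParts parts Z, ∀ P' ∈ cutParts parts Z, P ≠ P' → Disjoint P P') ∧
    (∀ P ∈ cutParts parts Z, ∀ P' ∈ cutParts parts Z, P ≠ P' → ∀ x ∈ P, ∀ y ∈ P', ¬ G.Adj x y) := by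
  have hmem : ∀ P ∈ cutParts parts Z, ∃ R ∈ parts, P = R \ Z ∧ P.Nonempty := by
    intro P hP
    obtain ⟨h1, h2⟩ := Finset.mem_filter.1 hP
    obtain ⟨R, hR, rfl⟩ := Finset.mem_image.1 h1
    exact ⟨R, hR, rfl, h2⟩
  refine ⟨?_, ?_, ?_, ?_⟩
  · intro P hP
    obtain ⟨R, hR, rfl, hne⟩ := hmem P hP
    obtain ⟨h1, _, h3⟩ := hd.parts_sub R hR
    refine ⟨?_, hne, (Finset.card_le_card Finset.sdiff_subset).trans h3⟩
    intro x hx
    obtain ⟨hxR, hxZ⟩ := Finset.mem_sdiff.1 hx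
    exact Finset.mem_sdiff.2 ⟨(Finset.mem_sdiff.1 (h1 hxR)).1, hxZ⟩
  · intro x hx
    obtain ⟨hxQ, hxZ⟩ := Finset.mem_sdiff.1 hx
    have hx0 : x ∈ Q \ Q₀ := Finset.mem_sdiff.2 ⟨hxQ, fun h => hxZ (h₀ h)⟩
    obtain ⟨R, hR, hxR⟩ := hd.parts_cover x hx0
    have hin : x ∈ R \ Z := Finset.mem_sdiff.2 ⟨hxR, hxZ⟩
    exact ⟨R \ Z, Finset.mem_filter.2 ⟨Finset.mem_image_of_mem _ hR, ⟨x, hin⟩⟩, hin⟩
  · intro P hP P' hP' hne
    obtain ⟨R, hR, rfl, _⟩ := hmem P hP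
    obtain ⟨R', hR', rfl, _⟩ := hmem P' hP'
    have hRne : R ≠ R' := fun h => hne (by rw [h])
    exact Finset.disjoint_of_subset_left Finset.sdiff_subset
      (Finset.disjoint_of_subset_right Finset.sdiff_subset (hd.parts_disj R hR R' hR' hRne))
  · intro P hP P' hP' hne x hx y hy
    obtain ⟨R, hR, rfl, _⟩ := hmem P hP
    obtain ⟨R', hR', rfl, _⟩ := hmem P' hP'
    have hRne : R ≠ R' := fun h => hne (by rw [h])
    exact hd.parts_nonadj R hR R' hR' hRne x (Finset.mem_sdiff.1 hx).1 y (Finset.mem_sdiff.1 hy).1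

end Vale.Agent.Lib.P064H
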