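import Vale.Agent.Lib.P064H.Defs

/-!
Numeric and counting tools, copied from the older level machine (these have proofs there).
-/

open Finset

namespace Vale.Agent.Lib.P064H

open Vale.Agent.Lib.P064 Vale.Agent.Lib.P064E
open scoped Classical

variable {V α : Type} [Fintype V] [Fintype α] {F : SimpleGraph α} {H : SimpleGraph V} {n : ℕ}
  {q l lam : ℝ} {K C : Finset α}

/-- Restrictions to `D ∪ P` of a family agreeing on `D` are at most those to `P`. -/
lemma card_image_proj_union_le {D P : Finset α} (S : Finset (α → V))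
    (hag : ∀ φ ∈ S, ∀ φ' ∈ S, ∀ x ∈ D, φ x = φ' x) :
    (S.image (proj (D ∪ P))).card ≤ (S.image (proj P)).card := by
  refine Finset.card_le_card_of_injOn (res P) ?_ ?_
  · intro ψ hψ
    have hψ' := Finset.mem_coe.1 hψ
    obtain ⟨φ, hφ, rfl⟩ := Finset.mem_image.1 hψ'
    rw [res_proj Finset.subset_union_right]
    exact Finset.mem_coe.2 (Finset.mem_image_of_mem _ hφ)
  · intro ψ hψ ψ' hψ' h
    have h1 := Finset.mem_coe.1 hψ
    have h2 := Finset.mem_coe.1 hψ'
    obtain ⟨φ, hφ, rfl⟩ := Finset.mem_image.1 h1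
    obtain ⟨φ', hφ', rfl⟩ := Finset.mem_image.1 h2
    rw [res_proj Finset.subset_union_right, res_proj Finset.subset_union_right] at h
    funext x
    unfold proj
    by_cases hx : x ∈ D ∪ P
    · rw [if_pos hx, if_pos hx]
      rcases Finset.mem_union.1 hx with h3 | h3
      · rw [hag φ hφ φ' hφ' x h3]
      · have := proj_eq_apply h3 h
        rw [this]
    · rw [if_neg hx, if_neg hx]

/-- Numeric part for the images of sources: `choose v t ≤ (6 l)^t exp e` when `v ≤ 6 e l`. -/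
lemma choose_bound {v t : ℕ} {e : ℝ} (he : 0 ≤ e) (hl : 0 ≤ l) (hv : (v : ℝ) ≤ 6 * e * l) :
    ((v.choose t : ℕ) : ℝ) ≤ (6 * l) ^ t * Real.exp e := by
  have h1 : ((v.choose t : ℕ) : ℝ) ≤ (v : ℝ) ^ t / t.factorial := Nat.choose_le_pow_div t v
  have hfac : (0 : ℝ) < t.factorial := by positivity
  have h2 : e ^ t / t.factorial ≤ Real.exp e := Real.pow_div_factorial_le_exp e he t
  have h3 : (v : ℝ) ^ t ≤ (6 * e * l) ^ t := pow_le_pow_left₀ (Nat.cast_nonneg _) hv t
  calc ((v.choose t : ℕ) : ℝ) ≤ (v : ℝ) ^ t / t.factorial := h1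
    _ ≤ (6 * e * l) ^ t / t.factorial := by gcongr
    _ = (6 * l) ^ t * (e ^ t / t.factorial) := by
        rw [mul_assoc, mul_comm e l, ← mul_assoc, mul_pow]
        ring
    _ ≤ _ := by gcongr

/-- Numeric part for the values on `Lf`: `t^L ≤ exp k`. -/
lemma sources_bound {t L k s s' : ℕ} (htk : t ≤ k) (hk1 : 1 ≤ k) (hks' : k ≤ s') (hL : s * L ≤ k)
    (hss : Real.log s' ≤ s) : (t : ℝ) ^ L ≤ Real.exp k := by
  have hk0 : (0 : ℝ) < k := by exact_mod_cast hk1
  have h1 : (t : ℝ) ^ L ≤ (k : ℝ) ^ L := pow_le_pow_left₀ (Nat.cast_nonneg _) (by exact_mod_cast htk) L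
  have h2 : (k : ℝ) ^ L = Real.exp (L * Real.log k) := by
    rw [Real.exp_nat_mul, Real.exp_log hk0]
  have h3 : Real.log k ≤ s := by
    refine le_trans (Real.log_le_log hk0 (by exact_mod_cast hks')) hss
  have h4 : (L : ℝ) * Real.log k ≤ k := by
    have h5 : (L : ℝ) * Real.log k ≤ L * s := mul_le_mul_of_nonneg_left h3 (Nat.cast_nonneg _)
    have h6 : (L : ℝ) * s ≤ k := by
      have : L * s ≤ k := by rw [mul_comm]; exact hL
      exact_mod_cast this
    linarith
  calc (t : ℝ) ^ L ≤ (k : ℝ) ^ L := h1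
    _ = Real.exp (L * Real.log k) := h2
    _ ≤ Real.exp k := Real.exp_le_exp.2 h4

/-- The edges touching different parts are different. -/
lemma sum_tch_parts_le {Q Q₀ : Finset α} {parts : Finset (Finset α)} (hQK : Q ⊆ K)
    (hsub : ∀ P ∈ parts, P ⊆ Q \ Q₀)
    (hdis : ∀ P ∈ parts, ∀ P' ∈ parts, P ≠ P' → Disjoint P P')
    (hna : ∀ P ∈ parts, ∀ P' ∈ parts, P ≠ P' → ∀ x ∈ P, ∀ y ∈ P', ¬ F.Adj x y) :
    ∑ P ∈ parts, (tch F K P).card ≤ (tch F K Q).card := by
  have hPQ : ∀ P ∈ parts, P ⊆ Q := fun P hP =>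
    (hsub P hP).trans Finset.sdiff_subset
  have h1 : parts.biUnion (fun P => tch F K P) ⊆ tch F K Q := by
    intro e he
    obtain ⟨P, hP, heP⟩ := Finset.mem_biUnion.1 he
    exact tch_mono (hPQ P hP) hQK heP
  have h2 : (parts.biUnion (fun P => tch F K P)).card = ∑ P ∈ parts, (tch F K P).card := by
    refine Finset.card_biUnion ?_
    intro P hP P' hP' hne
    change Disjoint (tch F K P) (tch F K P')
    rw [Finset.disjoint_left]
    intro e he he'
    induction e using Sym2.ind with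
    | _ u v =>
      have hPK := (hPQ P hP).trans hQK
      have hPK' := (hPQ P' hP').trans hQK
      obtain ⟨h3, _, _, h4⟩ := (mem_tch_pair hPK).1 he
      obtain ⟨_, _, _, h5⟩ := (mem_tch_pair hPK').1 he'
      have hd := hdis P hP P' hP' hne
      rcases h4 with h4 | h4 <;> rcases h5 with h5 | h5
      · exact (Finset.disjoint_left.1 hd h4) h5
      · exact hna P hP P' hP' hne u h4 v h5 h3
      · exact hna P hP P' hP' hne v h4 u h5 h3.symm
      · exact (Finset.disjoint_left.1 hd h4) h5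
  rw [← h2]
  exact Finset.card_le_card h1

/-- `m ^ k ≤ s ^ k e^m` for `k ≤ s`: from `m^k ≤ k! e^m`, `k! ≤ k^k ≤ s^k`. -/
lemma pow_le_pow_mul_exp {m : ℝ} (hm : 0 ≤ m) {k s : ℕ} (hks : k ≤ s) :
    m ^ k ≤ (s : ℝ) ^ k * Real.exp m := by
  have h1 : m ^ k / k.factorial ≤ Real.exp m := Real.pow_div_factorial_le_exp m hm k
  have hfac : (0 : ℝ) < k.factorial := by positivity
  have h2 : m ^ k ≤ Real.exp m * k.factorial := by rwa [div_le_iff₀ hfac] at h1
  have h3 : (k.factorial : ℝ) ≤ (s : ℝ) ^ k := by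
    have h4 : k.factorial ≤ k ^ k := Nat.factorial_le_pow k
    have h5 : k ^ k ≤ s ^ k := Nat.pow_le_pow_left hks k
    exact_mod_cast h4.trans h5
  calc m ^ k ≤ Real.exp m * k.factorial := h2
    _ ≤ Real.exp m * (s : ℝ) ^ k := mul_le_mul_of_nonneg_left h3 (Real.exp_pos _).le
    _ = _ := mul_comm _ _

end Vale.Agent.Lib.P064H
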