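import Vale.Agent.Lib.P064E.Tree2

/-!
The labels: a map onto a fixed vertex set is determined by few values and two pointer functions.
-/

open Finset

namespace Vale.Agent.Lib.P064H

open Vale.Agent.Lib.P064 Vale.Agent.Lib.P064E
open scoped Classical

variable {V α : Type} [Fintype V] [Fintype α] {H : SimpleGraph V} {n : ℕ} {q l lam : ℝ}

/-- For an edge set `T` of `H`: `∏_{w ∈ W} (deg_T w + 1) ≤ exp (2 t l / lam)`, `t = |W|`.
(`1 + d ≤ e^d`; `∑ d ≤ 2 |T'|`, `T'` the edges of `T` inside `W`; `density_log` on `T'`.) -/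
theorem prod_deg_le (hG : GoodDensity n q H) (hs : Std n q l lam) (W : Finset V)
    (T : Finset (Sym2 V)) (hT : ∀ e ∈ T, e ∈ H.edgeSet) :
    ∏ w ∈ W, (((W.filter fun w' => s(w, w') ∈ T).card : ℝ) + 1) ≤
      Real.exp (2 * (W.card : ℝ) * l / lam) :=
  Vale.Agent.Lib.P064E.prod_deg_le hG hs W T hT

/-- Maps injective on `Z`, with image `W₀`, sending `x, p₁ x` and `x, p₂ x` to edges of `T` for non fixed
points, and `Z` generated from `Lf` by `p₁`, `p₂`: determined by the values on `Lf` and the two successor functions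
on `W₀` (`succ_i (f x) = f (p_i x)`, values in `{w} ∪ nbrs of w in W₀ through T`).
If `f, f'` have the same data then `{x : f x = f' x}` contains `Lf` and is closed. -/
theorem tree_count2 {Z Lf : Finset α} {p₁ p₂ : α → α}
    (hc₁ : ∀ x ∈ Z, p₁ x ∈ Z) (hc₂ : ∀ x ∈ Z, p₂ x ∈ Z) (hlf : Lf ⊆ Z)
    (hreach : ∀ T : Finset α, Lf ⊆ T → (∀ x ∈ T, x ∈ Z → p₁ x ∈ T) →
      (∀ x ∈ T, x ∈ Z → p₂ x ∈ T) → Z ⊆ T)
    (W₀ : Finset V) (T : Finset (Sym2 V)) (𝓕 : Finset (α → V))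
    (hinj : ∀ f ∈ 𝓕, Set.InjOn f Z) (him : ∀ f ∈ 𝓕, Z.image f = W₀)
    (hedge₁ : ∀ f ∈ 𝓕, ∀ x ∈ Z, p₁ x ≠ x → s(f x, f (p₁ x)) ∈ T)
    (hedge₂ : ∀ f ∈ 𝓕, ∀ x ∈ Z, p₂ x ≠ x → s(f x, f (p₂ x)) ∈ T) :
    ((𝓕.image (proj Z)).card : ℝ) ≤
      (W₀.card : ℝ) ^ Lf.card *
        (∏ w ∈ W₀, (((W₀.filter fun w' => s(w, w') ∈ T).card : ℝ) + 1)) ^ 2 := by
  classical
  let D₁ : Finset ((x : α) → x ∈ Lf → V) := Lf.pi (fun _ => W₀)
  let D₂ : Finset ((w : V) → w ∈ W₀ → V) :=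
    W₀.pi (fun w => insert w (W₀.filter fun w' => s(w, w') ∈ T))
  let b : (α → V) → ((x : α) → x ∈ Lf → V) × ((w : V) → w ∈ W₀ → V) × ((w : V) → w ∈ W₀ → V) :=
    fun f => (fun x _ => f x, fun w _ => succF Z p₁ f w, fun w _ => succF Z p₂ f w)
  have hstep : ∀ {p : α → α}, (∀ x ∈ Z, p x ∈ Z) → (∀ f ∈ 𝓕, ∀ x ∈ Z, p x ≠ x → s(f x, f (p x)) ∈ T) →
      ∀ f ∈ 𝓕, ∀ w ∈ W₀, succF Z p f w ∈ insert w (W₀.filter fun w' => s(w, w') ∈ T) := by
    intro p hc hedge f hf w hw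
    have hw' := hw
    rw [← him f hf] at hw'
    obtain ⟨x, hx, rfl⟩ := Finset.mem_image.1 hw'
    rw [succF_apply (hinj f hf) hx]
    by_cases hp : p x = x
    · rw [hp]
      exact Finset.mem_insert_self _ _
    · refine Finset.mem_insert_of_mem (Finset.mem_filter.2 ⟨?_, hedge f hf x hx hp⟩)
      rw [← him f hf]
      exact Finset.mem_image_of_mem _ (hc x hx)
  have hclosed : ∀ f ∈ 𝓕, ∀ f' ∈ 𝓕, ∀ {p : α → α}, (∀ x ∈ Z, p x ∈ Z) →
      (∀ w ∈ W₀, succF Z p f w = succF Z p f' w) →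
      ∀ x ∈ Z.filter (fun x => f x = f' x), x ∈ Z → p x ∈ Z.filter (fun x => f x = f' x) := by
    intro f hf f' hf' p hc h2 x hx hxQ
    have hxe := (Finset.mem_filter.1 hx).2
    refine Finset.mem_filter.2 ⟨hc x hxQ, ?_⟩
    have hw : f x ∈ W₀ := by
      rw [← him f hf]
      exact Finset.mem_image_of_mem _ hxQ
    have h3 := h2 (f x) hw
    rw [succF_apply (hinj f hf) hxQ] at h3
    rw [h3]
    conv_lhs => rw [hxe]
    exact succF_apply (hinj f' hf') hxQ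
  have hcount : (𝓕.image (proj Z)).card ≤ (D₁ ×ˢ (D₂ ×ˢ D₂)).card := by
    refine Vale.Agent.Lib.P064E.card_image_le_of_factor 𝓕 (proj Z) b (D₁ ×ˢ (D₂ ×ˢ D₂)) ?_ ?_
    · intro f hf f' hf' hb
      have h1 : ∀ x ∈ Lf, f x = f' x := fun x hx =>
        congrFun (congrFun (congrArg Prod.fst hb) x) hx
      have h2 : ∀ w ∈ W₀, succF Z p₁ f w = succF Z p₁ f' w := fun w hw =>
        congrFun (congrFun (congrArg (fun t => t.2.1) hb) w) hw
      have h3 : ∀ w ∈ W₀, succF Z p₂ f w = succF Z p₂ f' w := fun w hw =>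
        congrFun (congrFun (congrArg (fun t => t.2.2) hb) w) hw
      have hsub : Z ⊆ Z.filter (fun x => f x = f' x) := by
        refine hreach _ ?_ (hclosed f hf f' hf' hc₁ h2) (hclosed f hf f' hf' hc₂ h3)
        intro x hx
        exact Finset.mem_filter.2 ⟨hlf hx, h1 x hx⟩
      funext x
      unfold proj
      by_cases hx : x ∈ Z
      · rw [if_pos hx, if_pos hx, (Finset.mem_filter.1 (hsub hx)).2]
      · rw [if_neg hx, if_neg hx]
    · intro f hf
      refine Finset.mem_product.2 ⟨Finset.mem_pi.2 ?_, Finset.mem_product.2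
        ⟨Finset.mem_pi.2 ?_, Finset.mem_pi.2 ?_⟩⟩
      · intro x hx
        change f x ∈ W₀
        rw [← him f hf]
        exact Finset.mem_image_of_mem _ (hlf hx)
      · intro w hw
        exact hstep hc₁ hedge₁ f hf w hw
      · intro w hw
        exact hstep hc₂ hedge₂ f hf w hw
  have hD : (D₁ ×ˢ (D₂ ×ˢ D₂)).card = W₀.card ^ Lf.card *
      ((∏ w ∈ W₀, (insert w (W₀.filter fun w' => s(w, w') ∈ T)).card) *
        ∏ w ∈ W₀, (insert w (W₀.filter fun w' => s(w, w') ∈ T)).card) := by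
    rw [Finset.card_product, Finset.card_product, Finset.card_pi, Finset.card_pi, Finset.prod_const]
  have h1 : ((𝓕.image (proj Z)).card : ℝ) ≤ ((W₀.card ^ Lf.card *
      ((∏ w ∈ W₀, (insert w (W₀.filter fun w' => s(w, w') ∈ T)).card) *
        ∏ w ∈ W₀, (insert w (W₀.filter fun w' => s(w, w') ∈ T)).card) : ℕ) : ℝ) := by
    rw [← hD]
    exact_mod_cast hcount
  refine h1.trans ?_
  push_cast
  apply mul_le_mul_of_nonneg_left _ (by positivity)
  have h5 : ∏ w ∈ W₀, ((insert w (W₀.filter fun w' => s(w, w') ∈ T)).card : ℝ) ≤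
      ∏ w ∈ W₀, (((W₀.filter fun w' => s(w, w') ∈ T).card : ℝ) + 1) := by
    refine Finset.prod_le_prod (fun _ _ => by positivity) ?_
    intro w _
    exact_mod_cast Finset.card_insert_le _ _
  have h6 : 0 ≤ ∏ w ∈ W₀, ((insert w (W₀.filter fun w' => s(w, w') ∈ T)).card : ℝ) :=
    Finset.prod_nonneg (fun _ _ => by positivity)
  rw [pow_two]
  exact mul_le_mul h5 h5 h6 (h6.trans h5)

end Vale.Agent.Lib.P064H
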