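import Vale.Agent.Lib.P064H.Closure
import Vale.Agent.Lib.P064H.Tree
import Vale.Agent.Lib.P064H.Tools

/-!
The labels over one image set.
-/

open Finset

namespace Vale.Agent.Lib.P064H

open Vale.Agent.Lib.P064 Vale.Agent.Lib.P064E
open scoped Classical

variable {V α : Type} [Fintype V] [Fintype α] {F : SimpleGraph α} {H : SimpleGraph V} {n : ℕ}
  {q l lam : ℝ} {K C Q Q₀ Lf : Finset α}

/-- `tree_count2` applied to the closure. -/
lemma labels_raw (hb : MinBlock F l lam K C) {sz : ℕ} (hQC : Q ⊆ C)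
    {p : α → α} {parts : Finset (Finset α)} (hd : TreeDec F Q sz Q₀ Lf p parts)
    {r : V → ℕ} {U : Finset (Sym2 V)} {π : α → α}
    (S : Finset (α → V)) (hemb : ∀ φ ∈ S, IsEmb F H φ)
    (hSU : ∀ φ ∈ S, tchIm F K Q φ ⊆ U)
    (hpat : ∀ φ ∈ S, PatOK F K Q r π φ) (W₀ : Finset V)
    (him : ∀ φ ∈ S, (piClosure Q Q₀ π).image φ = W₀) :
    ((S.image (proj (piClosure Q Q₀ π))).card : ℝ) ≤
      (W₀.card : ℝ) ^ Lf.card *
        (∏ w ∈ W₀, (((W₀.filter fun w' => s(w, w') ∈ U).card : ℝ) + 1)) ^ 2 := by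
  have hQK : Q ⊆ K := hQC.trans hb.sub
  have hZQ : piClosure Q Q₀ π ⊆ Q := piClosure_sub Q Q₀ π
  have hQ₀Z : Q₀ ⊆ piClosure Q Q₀ π := sub_piClosure π hd.sub
  have hedgeQ : ∀ f ∈ S, ∀ x y, x ∈ Q → y ∈ K → F.Adj x y → s(f x, f y) ∈ U := by
    intro f hf x y hx hy hxy
    apply hSU f hf
    exact Finset.mem_image.2 ⟨s(x, y), (mem_tch_pair hQK).2 ⟨hxy, hQK hx, hy, Or.inl hx⟩, rfl⟩
  exact tree_count2 (Z := piClosure Q Q₀ π) (Lf := Lf)
    (p₁ := fun x => if x ∈ Q₀ then p x else x) (p₂ := fun x => if π x ∈ Q then π x else x)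
    (by
      intro x hx
      by_cases hx0 : x ∈ Q₀
      · simp only [if_pos hx0]
        rcases hd.padj x hx0 with h | h
        · rw [h]
          exact hx
        · exact hQ₀Z h.1
      · simp only [if_neg hx0]
        exact hx)
    (by
      intro x hx
      by_cases hx0 : π x ∈ Q
      · simp only [if_pos hx0]
        exact piClosure_closed hx hx0
      · simp only [if_neg hx0]
        exact hx)
    (hd.lf_sub.trans hQ₀Z)
    (by
      intro T hLf h1 h3
      have h0 : Q₀ ⊆ T := by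
        refine hd.reach T hLf ?_
        intro x hxT hxQ
        have h4 := h1 x hxT (hQ₀Z hxQ)
        simpa only [if_pos hxQ] using h4
      refine piClosure_reach hd.sub T h0 ?_
      intro x hxT hxZ hπ
      have h4 := h3 x hxT hxZ
      simpa only [if_pos hπ] using h4)
    W₀ U S
    (fun f hf => (hemb f hf).1.injOn)
    him
    (by
      intro f hf x _ hne
      by_cases hx0 : x ∈ Q₀
      · simp only [if_pos hx0] at hne ⊢
        rcases hd.padj x hx0 with h | h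
        · exact absurd h hne
        · exact hedgeQ f hf x (p x) (hd.sub hx0) (hQK (hd.sub h.1)) h.2
      · simp only [if_neg hx0] at hne
        exact absurd rfl hne)
    (by
      intro f hf x hxZ hne
      by_cases hx0 : π x ∈ Q
      · simp only [if_pos hx0] at hne ⊢
        rcases hpat f hf x (hZQ hxZ) with h | h
        · exact absurd h.1 hne
        · obtain ⟨hzK, hadj⟩ := Finset.mem_filter.1 h.1
          exact hedgeQ f hf x (π x) (hZQ hxZ) hzK hadj
      · simp only [if_neg hx0] at hne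
        exact absurd rfl hne)

/-- Part 2: the labels over one image set: at most `exp (18 e)`. Uses `tree_count2` with `p₁ = p` on `Q₀` (identity
off `Q₀`), `p₂ = π` where `π x ∈ Q` (identity elsewhere), `prod_deg_le`, `sources_bound`;
`2 |W| l / lam ≤ 4 |Q| ≤ 8 e`. -/
theorem labels_count (hG : GoodDensity n q H) (hs : Std n q l lam) (hlam : l ≤ 2 * lam)
    (hb : MinBlock F l lam K C) (h2 : 2 ≤ C.card) {sz s' : ℕ} (hss : Real.log s' ≤ sz)
    (hQC : Q ⊆ C) (hQne : Q.Nonempty) (hQs' : Q.card ≤ s')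
    {p : α → α} {parts : Finset (Finset α)} (hd : TreeDec F Q sz Q₀ Lf p parts)
    {r : V → ℕ} {U : Finset (Sym2 V)} (hUH : ∀ e ∈ U, e ∈ H.edgeSet) {π : α → α}
    (S : Finset (α → V)) (hemb : ∀ φ ∈ S, IsEmb F H φ)
    (hSU : ∀ φ ∈ S, tchIm F K Q φ ⊆ U)
    (hpat : ∀ φ ∈ S, PatOK F K Q r π φ) (W₀ : Finset V)
    (him : ∀ φ ∈ S, (piClosure Q Q₀ π).image φ = W₀) :
    ((S.image (proj (piClosure Q Q₀ π))).card : ℝ) ≤
      Real.exp (18 * ((tch F K Q).card : ℝ)) := by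
  have hZQ : piClosure Q Q₀ π ⊆ Q := piClosure_sub Q Q₀ π
  rcases S.eq_empty_or_nonempty with rfl | ⟨φ₀, hφ₀⟩
  · simp only [Finset.image_empty, Finset.card_empty, Nat.cast_zero]
    exact (Real.exp_pos _).le
  have hmain := labels_raw hb hQC hd S hemb hSU hpat W₀ him
  set e : ℝ := ((tch F K Q).card : ℝ) with he
  have hQe : (Q.card : ℝ) ≤ 2 * e := hb.card_le h2 hQC hs.l1 hs.lam_le
  have he0 : 0 ≤ e := Nat.cast_nonneg _
  have hWcard : W₀.card ≤ Q.card := by
    rw [← him φ₀ hφ₀]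
    exact Finset.card_image_le.trans (Finset.card_le_card hZQ)
  have hWcardR : (W₀.card : ℝ) ≤ Q.card := by exact_mod_cast hWcard
  have hk1 : 1 ≤ Q.card := Finset.card_pos.2 hQne
  have h3 := sources_bound (t := W₀.card) hWcard hk1 hQs' hd.lf_card hss
  have h4 := prod_deg_le hG hs W₀ U hUH
  have hlam0 : 0 < lam := by linarith [hs.lam1]
  have h5 : 2 * (W₀.card : ℝ) * l / lam ≤ 8 * e := by
    rw [div_le_iff₀ hlam0]
    have hW0 : (0 : ℝ) ≤ W₀.card := Nat.cast_nonneg _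
    have hl0 : 0 ≤ l := by linarith [hs.l1]
    have h6 : (W₀.card : ℝ) * l ≤ (2 * e) * (2 * lam) :=
      mul_le_mul (hWcardR.trans hQe) hlam hl0 (by linarith)
    nlinarith
  have hprod0 : 0 ≤ ∏ w ∈ W₀, (((W₀.filter fun w' => s(w, w') ∈ U).card : ℝ) + 1) :=
    Finset.prod_nonneg (fun _ _ => by positivity)
  have h7 : ∏ w ∈ W₀, (((W₀.filter fun w' => s(w, w') ∈ U).card : ℝ) + 1) ≤ Real.exp (8 * e) :=
    h4.trans (Real.exp_le_exp.2 h5)
  have h8 : (∏ w ∈ W₀, (((W₀.filter fun w' => s(w, w') ∈ U).card : ℝ) + 1)) ^ 2 ≤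
      Real.exp (16 * e) := by
    calc _ ≤ (Real.exp (8 * e)) ^ 2 := pow_le_pow_left₀ hprod0 h7 2
      _ = Real.exp (16 * e) := by rw [← Real.exp_nat_mul]; ring_nf
  have h9 : (W₀.card : ℝ) ^ Lf.card ≤ Real.exp (2 * e) :=
    h3.trans (Real.exp_le_exp.2 hQe)
  calc ((S.image (proj (piClosure Q Q₀ π))).card : ℝ)
      ≤ (W₀.card : ℝ) ^ Lf.card *
        (∏ w ∈ W₀, (((W₀.filter fun w' => s(w, w') ∈ U).card : ℝ) + 1)) ^ 2 := hmain
    _ ≤ Real.exp (2 * e) * Real.exp (16 * e) :=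
        mul_le_mul h9 h8 (pow_nonneg hprod0 2) (Real.exp_pos _).le
    _ = Real.exp (18 * e) := by rw [← Real.exp_add]; ring_nf

end Vale.Agent.Lib.P064H
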