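import Vale.Agent.Lib.P064H.Recover
import Vale.Agent.Lib.P064H.Tools

/-!
The base of the levels with fixed pattern.
-/

open Finset

namespace Vale.Agent.Lib.P064H

open Vale.Agent.Lib.P064 Vale.Agent.Lib.P064E
open scoped Classical

variable {V α : Type} [Fintype V] [Fintype α] {F : SimpleGraph α} {H : SimpleGraph V} {n : ℕ}
  {q l lam : ℝ} {K C : Finset α}

/-- A vertex of a block is in `vs U` for every `U` containing the images of the edges touching `Q ∋ y`. -/
lemma vertex_mem_vs (hs : Std n q l lam) (hb : MinBlock F l lam K C) (h2 : 2 ≤ C.card) {Q : Finset α}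
    (hQC : Q ⊆ C) {φ : α → V} {U : Finset (Sym2 V)} (hSU : tchIm F K Q φ ⊆ U) {y : α} (hy : y ∈ Q) :
    φ y ∈ vs U := by
  have hQK : Q ⊆ K := hQC.trans hb.sub
  have h3 := hb.single_neg h2 (hQC hy)
  have hl0 := hs.l1
  have hpos : (tch F K {y}).Nonempty := by
    rw [Finset.nonempty_iff_ne_empty]
    intro h0
    rw [h0] at h3
    simp only [Finset.card_empty, Nat.cast_zero, zero_mul] at h3
    linarith
  obtain ⟨e, he⟩ := hpos
  have hyK : ({y} : Finset α) ⊆ Q := Finset.singleton_subset_iff.2 hy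
  have he2 : e ∈ tch F K Q := tch_mono hyK hQK he
  have he3 : Sym2.map φ e ∈ U := hSU (Finset.mem_image_of_mem _ he2)
  induction e using Sym2.ind with
  | _ a b =>
    obtain ⟨_, _, _, h4⟩ := (mem_tch_pair (hyK.trans hQK)).1 he
    rw [Sym2.map_mk] at he3
    rcases h4 with h4 | h4
    · rw [Finset.mem_singleton] at h4
      subst h4
      exact Finset.mem_biUnion.2 ⟨_, he3, by simp⟩
    · rw [Finset.mem_singleton] at h4
      subst h4
      exact Finset.mem_biUnion.2 ⟨_, he3, by simp⟩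

/-- `16 ≤ exp 3`. -/
lemma sixteen_le_exp_three : (16 : ℝ) ≤ Real.exp 3 := by
  have h1 := Real.exp_one_gt_d9
  have h2 : Real.exp 3 = Real.exp 1 ^ 3 := by
    rw [← Real.exp_nat_mul]
    norm_num
  rw [h2]
  have h3 : (2.7 : ℝ) ≤ Real.exp 1 := by linarith
  calc (16 : ℝ) ≤ 2.7 ^ 3 := by norm_num
    _ ≤ _ := pow_le_pow_left₀ (by norm_num) h3 3

/-- Base: `recover_count`, `|vs U| ≤ 6 e l`, `pow_le_pow_mul_exp`, `4 ^ |Q| ≤ 16 ^ e ≤ exp (3 e)`. -/
theorem level_base (hs : Std n q l lam) (hb : MinBlock F l lam K C) (h2 : 2 ≤ C.card)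
    {r : V → ℕ} {Ustar : Finset (Sym2 V)} (hr : Rank r Ustar) (sz : ℕ) (hs1 : 1 ≤ sz) :
    LevelP F H l K C r Ustar sz (6 * l * sz) 4 := by
  intro Q hQC _ hQs π S U hemb hag hUU hSU hUcard hpat
  have hQK : Q ⊆ K := hQC.trans hb.sub
  have hrec := recover_count hQK hr hUU S hemb hag hSU hpat
    (fun φ hφ y hy => vertex_mem_vs hs hb h2 hQC (hSU φ hφ) (Finset.mem_filter.1 hy).1)
  set e : ℝ := ((tch F K Q).card : ℝ) with he
  have he0 : 0 ≤ e := Nat.cast_nonneg _
  have hl0 : 0 ≤ l := by linarith [hs.l1]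
  have hv : ((vs U).card : ℝ) ≤ 6 * l * e := by
    have h3 : ((vs U).card : ℝ) ≤ 2 * (U.card : ℝ) := by exact_mod_cast vs_card_le U
    nlinarith
  have hj : (Src Q π).card ≤ sz := (Finset.card_filter_le _ _).trans hQs
  have h4 : ((vs U).card : ℝ) ^ (Src Q π).card ≤ (6 * l * sz) ^ (Src Q π).card * Real.exp e := by
    calc ((vs U).card : ℝ) ^ (Src Q π).card ≤ (6 * l * e) ^ (Src Q π).card :=
          pow_le_pow_left₀ (Nat.cast_nonneg _) hv _
      _ = (6 * l) ^ (Src Q π).card * e ^ (Src Q π).card := by rw [mul_pow]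
      _ ≤ (6 * l) ^ (Src Q π).card * ((sz : ℝ) ^ (Src Q π).card * Real.exp e) := by
          refine mul_le_mul_of_nonneg_left (pow_le_pow_mul_exp he0 hj) (by positivity)
      _ = _ := by rw [mul_pow]; ring
  have h5 : (4 : ℝ) ^ Q.card ≤ Real.exp (3 * e) := by
    have h6 : (Q.card : ℝ) ≤ 2 * e := hb.card_le h2 hQC hs.l1 hs.lam_le
    have h7 : Q.card ≤ 2 * (tch F K Q).card := by
      have : (Q.card : ℝ) ≤ ((2 * (tch F K Q).card : ℕ) : ℝ) := by push_cast; exact h6
      exact_mod_cast this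
    calc (4 : ℝ) ^ Q.card ≤ 4 ^ (2 * (tch F K Q).card) :=
          pow_le_pow_right₀ (by norm_num) h7
      _ = 16 ^ (tch F K Q).card := by rw [pow_mul]; norm_num
      _ ≤ (Real.exp 3) ^ (tch F K Q).card := pow_le_pow_left₀ (by norm_num) sixteen_le_exp_three _
      _ = Real.exp (3 * e) := by rw [← Real.exp_nat_mul, he]; ring_nf
  have hnn : (0 : ℝ) ≤ (6 * l * sz) ^ (Src Q π).card := by positivity
  calc ((S.image (proj Q)).card : ℝ) ≤ ((vs U).card : ℝ) ^ (Src Q π).card * 4 ^ Q.card := hrec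
    _ ≤ ((6 * l * sz) ^ (Src Q π).card * Real.exp e) * Real.exp (3 * e) :=
        mul_le_mul h4 h5 (by positivity) (by positivity)
    _ = (6 * l * sz) ^ (Src Q π).card * Real.exp (4 * e) := by
        rw [mul_assoc, ← Real.exp_add]
        ring_nf

end Vale.Agent.Lib.P064H
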