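import Vale.Agent.Lib.P064H.ImageSets
import Vale.Agent.Lib.P064H.Labels
import Vale.Agent.Lib.P064H.LevelBase

/-!
The count on the closed part `Z`: choose the images of the sources as a set, generate the image of `Z`,
recover the labels.
-/

open Finset

namespace Vale.Agent.Lib.P064H

open Vale.Agent.Lib.P064 Vale.Agent.Lib.P064E
open scoped Classical

variable {V α : Type} [Fintype V] [Fintype α] {F : SimpleGraph α} {H : SimpleGraph V} {n : ℕ}
  {q l lam : ℝ} {K C Q Q₀ Lf : Finset α}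

/-- The numeric part of the count. -/
lemma count_num (hs : Std n q l lam) (hb : MinBlock F l lam K C) (h2 : 2 ≤ C.card)
    (hQC : Q ⊆ C) {Z : Finset α} (hZQ : Z ⊆ Q) {v t : ℕ} (I x : ℝ) (U : ℝ) (hI0 : 0 ≤ I)
    (hv : (v : ℝ) ≤ 2 * U) (hUcard : U ≤ 3 * ((tch F K Q).card : ℝ) * l)
    (hI : I ≤ ((v.choose t : ℕ) : ℝ) * 16 ^ (Z.card + (att F K Q).card))
    (hx : x ≤ I * Real.exp (18 * ((tch F K Q).card : ℝ))) :
    x ≤ (6 * l) ^ t * Real.exp (28 * ((tch F K Q).card : ℝ)) := by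
  have hQK : Q ⊆ K := hQC.trans hb.sub
  set e : ℝ := ((tch F K Q).card : ℝ) with he
  have he0 : 0 ≤ e := Nat.cast_nonneg _
  have hl0 : 0 ≤ l := by linarith [hs.l1]
  have hv2 : (v : ℝ) ≤ 6 * e * l := by nlinarith
  have hch := choose_bound (t := t) he0 hl0 hv2
  have hQe : (Q.card : ℝ) ≤ 2 * e := hb.card_le h2 hQC hs.l1 hs.lam_le
  have hQe2 : Q.card ≤ 2 * (tch F K Q).card := by
    have h3 : (Q.card : ℝ) ≤ ((2 * (tch F K Q).card : ℕ) : ℝ) := by push_cast; exact hQe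
    exact_mod_cast h3
  have hZc : Z.card ≤ Q.card := Finset.card_le_card hZQ
  have hat : (att F K Q).card ≤ (tch F K Q).card := att_card_le hQK
  have hexp : Z.card + (att F K Q).card ≤ 3 * (tch F K Q).card := by omega
  have h16 : (16 : ℝ) ^ (Z.card + (att F K Q).card) ≤ Real.exp (9 * e) := by
    calc (16 : ℝ) ^ (Z.card + (att F K Q).card) ≤ 16 ^ (3 * (tch F K Q).card) :=
          pow_le_pow_right₀ (by norm_num) hexp
      _ ≤ (Real.exp 3) ^ (3 * (tch F K Q).card) :=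
          pow_le_pow_left₀ (by norm_num) sixteen_le_exp_three _
      _ = Real.exp (9 * e) := by
          rw [← Real.exp_nat_mul, he]
          push_cast
          ring_nf
  have hpow0 : (0 : ℝ) ≤ (6 * l) ^ t := by positivity
  have hI2 : I ≤ ((6 * l) ^ t * Real.exp e) * Real.exp (9 * e) :=
    hI.trans (mul_le_mul hch h16 (by positivity) (by positivity))
  calc x ≤ I * Real.exp (18 * e) := hx
    _ ≤ (((6 * l) ^ t * Real.exp e) * Real.exp (9 * e)) * Real.exp (18 * e) :=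
        mul_le_mul_of_nonneg_right hI2 (Real.exp_pos _).le
    _ = (6 * l) ^ t * Real.exp (28 * e) := by
        rw [mul_assoc, mul_assoc, ← Real.exp_add, ← Real.exp_add]
        ring_nf

/-- The count on `Z = piClosure Q Q₀ π`, from Parts 1, 2, `choose_bound` (`|vs U| ≤ 2 |U| ≤ 6 e l`),
`16 ^ (|Z| + |att|) ≤ 16 ^ (3 e) ≤ exp (9 e)`, where `|Z| ≤ |Q| ≤ 2 e` (`MinBlock.card_le`), `|att| ≤ e` (`att_card_le`). -/
theorem count_Z (hG : GoodDensity n q H) (hs : Std n q l lam) (hlam : l ≤ 2 * lam)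
    (hb : MinBlock F l lam K C) (h2 : 2 ≤ C.card) {sz s' : ℕ} (hss : Real.log s' ≤ sz)
    (hQC : Q ⊆ C) (hQne : Q.Nonempty) (hQs' : Q.card ≤ s')
    {p : α → α} {parts : Finset (Finset α)} (hd : TreeDec F Q sz Q₀ Lf p parts)
    {r : V → ℕ} {Ustar U : Finset (Sym2 V)} (hr : Rank r Ustar) (hUH : ∀ e ∈ Ustar, e ∈ H.edgeSet)
    (hUU : U ⊆ Ustar) {π : α → α} (S : Finset (α → V)) (hemb : ∀ φ ∈ S, IsEmb F H φ)
    (hag : ∀ φ ∈ S, ∀ φ' ∈ S, ∀ x ∈ att F K Q, φ x = φ' x)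
    (hSU : ∀ φ ∈ S, tchIm F K Q φ ⊆ U)
    (hUcard : (U.card : ℝ) ≤ 3 * ((tch F K Q).card : ℝ) * l)
    (hpat : ∀ φ ∈ S, PatOK F K Q r π φ) :
    ((S.image (proj (piClosure Q Q₀ π))).card : ℝ) ≤
      (6 * l) ^ (Src (piClosure Q Q₀ π) π).card * Real.exp (28 * ((tch F K Q).card : ℝ)) := by
  have hZQ : piClosure Q Q₀ π ⊆ Q := piClosure_sub Q Q₀ π
  have hQK : Q ⊆ K := hQC.trans hb.sub
  have hvs : ∀ φ ∈ S, ∀ y ∈ Src (piClosure Q Q₀ π) π, φ y ∈ vs U := fun φ hφ y hy =>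
    vertex_mem_vs hs hb h2 hQC (hSU φ hφ) (hZQ (Finset.mem_filter.1 hy).1)
  have hcl : ∀ x ∈ piClosure Q Q₀ π, π x ∈ Q → π x ∈ piClosure Q Q₀ π :=
    fun x hx h => piClosure_closed hx h
  have hI := image_sets_count hr hUU hQK hZQ hcl S hemb hag hSU hpat hvs
  have hfib : ∀ W₀ ∈ S.image (fun φ => (piClosure Q Q₀ π).image φ),
      (((S.filter (fun φ => (piClosure Q Q₀ π).image φ = W₀)).image
        (proj (piClosure Q Q₀ π))).card : ℝ) ≤ Real.exp (18 * ((tch F K Q).card : ℝ)) := by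
    intro W₀ _
    exact labels_count hG hs hlam hb h2 hss hQC hQne hQs' hd (fun e he => hUH e (hUU he)) _
      (fun φ hφ => hemb φ (Finset.mem_filter.1 hφ).1)
      (fun φ hφ => hSU φ (Finset.mem_filter.1 hφ).1)
      (fun φ hφ => hpat φ (Finset.mem_filter.1 hφ).1) W₀
      (fun φ hφ => (Finset.mem_filter.1 hφ).2)
  have hsub : S.image (proj (piClosure Q Q₀ π)) ⊆
      (S.image (fun φ => (piClosure Q Q₀ π).image φ)).biUnion (fun W₀ =>
        (S.filter (fun φ => (piClosure Q Q₀ π).image φ = W₀)).image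
          (proj (piClosure Q Q₀ π))) := by
    intro ψ hψ
    obtain ⟨f, hf, rfl⟩ := Finset.mem_image.1 hψ
    refine Finset.mem_biUnion.2 ⟨(piClosure Q Q₀ π).image f, Finset.mem_image_of_mem _ hf, ?_⟩
    exact Finset.mem_image_of_mem _ (Finset.mem_filter.2 ⟨hf, rfl⟩)
  have h3 : ((S.image (proj (piClosure Q Q₀ π))).card : ℝ) ≤
      ∑ W₀ ∈ S.image (fun φ => (piClosure Q Q₀ π).image φ),
        (((S.filter (fun φ => (piClosure Q Q₀ π).image φ = W₀)).image
          (proj (piClosure Q Q₀ π))).card : ℝ) := by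
    have h4 := (Finset.card_le_card hsub).trans Finset.card_biUnion_le
    exact_mod_cast h4
  have h5 := Finset.sum_le_sum hfib
  rw [Finset.sum_const, nsmul_eq_mul] at h5
  have hvU : ((vs U).card : ℝ) ≤ 2 * (U.card : ℝ) := by exact_mod_cast vs_card_le U
  have hIR : (((S.image (fun φ => (piClosure Q Q₀ π).image φ)).card : ℕ) : ℝ) ≤
      (((vs U).card.choose (Src (piClosure Q Q₀ π) π).card : ℕ) : ℝ) *
        16 ^ ((piClosure Q Q₀ π).card + (att F K Q).card) := by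
    exact_mod_cast hI
  exact count_num hs hb h2 hQC hZQ _ _ _ (Nat.cast_nonneg _) hvU hUcard hIR (h3.trans h5)

end Vale.Agent.Lib.P064H
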