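import Vale.Agent.Lib.P064H.Defs
import Vale.Agent.Lib.P064E.Cover

/-!
The maximal family over one block.
-/

open Finset

namespace Vale.Agent.Lib.P064H

open Vale.Agent.Lib.P064 Vale.Agent.Lib.P064E
open scoped Classical

variable {V α : Type} [Fintype V] [Fintype α] {F : SimpleGraph α} {H : SimpleGraph V} {n : ℕ}
  {q l lam : ℝ} {K C : Finset α}

/-- The restrictions to `K` of a family agreeing on `K \ C` number at most those to `C`. -/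
lemma card_image_proj_K_le (hCK : C ⊆ K) (S : Finset (α → V))
    (hag : ∀ φ ∈ S, ∀ φ' ∈ S, ∀ x ∈ K \ C, φ x = φ' x) :
    (S.image (proj K)).card ≤ (S.image (proj C)).card :=
  Vale.Agent.Lib.P064E.card_image_proj_K_le hCK S hag

/-- The number of restrictions to `C` is at most `|𝓜| max_{φ₁ ∈ 𝓜} |restrictions of lifts overlapping φ₁|`. -/
lemma card_le_sum_overlap (S 𝓜 : Finset (α → V))
    (hcov : ∀ φ ∈ S, ∃ x ∈ C, ∃ φ' ∈ 𝓜, ∃ y ∈ C, φ x = φ' y)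
    {N : ℝ} (hN0 : 0 ≤ N)
    (hN : ∀ φ₁ ∈ 𝓜, (((S.filter fun φ => ∃ x ∈ C, ∃ y ∈ C, φ x = φ₁ y).image (proj C)).card : ℝ) ≤ N) :
    ((S.image (proj C)).card : ℝ) ≤ (𝓜.card : ℝ) * N :=
  Vale.Agent.Lib.P064E.card_le_sum_overlap S 𝓜 hcov hN0 hN

/-- The dichotomy for a family pairwise disjoint on `C` agreeing on `K \ C`, from `sun_factorial` and `t_bound`:
`t ≤ |att| l` or `t ≤ e^2 x`, `x = n^b q^m`, when `m ≥ 1`. -/
theorem family_dichotomy (hG : GoodDensity n q H) (hs : Std n q l lam) (hCK : C ⊆ K)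
    (hCne : C.Nonempty) (hm : 1 ≤ (tch F K C).card)
    (𝓜 : Finset (α → V)) (h𝓜 : 𝓜.Nonempty) (hemb : ∀ φ ∈ 𝓜, IsEmb F H φ)
    (hag : ∀ φ ∈ 𝓜, ∀ φ' ∈ 𝓜, ∀ x ∈ K \ C, φ x = φ' x)
    (hdisj : ∀ φ ∈ 𝓜, ∀ φ' ∈ 𝓜, φ ≠ φ' → ∀ x ∈ C, ∀ y ∈ C, φ x ≠ φ' y) :
    (𝓜.card : ℝ) ≤ ((att F K C).card : ℝ) * l ∨
      (𝓜.card : ℝ) ≤ Real.exp 2 * ((n : ℝ) ^ C.card * q ^ (tch F K C).card) :=
  Vale.Agent.Lib.P064E.family_dichotomy hG hs hCK hCne hm 𝓜 h𝓜 hemb hag hdisj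

/-- `x = exp val`. -/
lemma x_eq_exp (hs : Std n q l lam) (b m : ℕ) :
    (n : ℝ) ^ b * q ^ m = Real.exp ((b : ℝ) * l - (m : ℝ) * lam) := by
  have hn : (0 : ℝ) < (n : ℝ) := by
    have := hs.n1
    exact_mod_cast this
  have h1 : (n : ℝ) = Real.exp l := by
    rw [hs.l_eq, Real.exp_log hn]
  have h2 : q = Real.exp (-lam) := by
    rw [hs.lam_eq, neg_neg, Real.exp_log hs.q0]
  have h3 : (n : ℝ) ^ b = Real.exp ((b : ℝ) * l) := by
    rw [h1, ← Real.exp_nat_mul]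
  have h4 : q ^ m = Real.exp (-((m : ℝ) * lam)) := by
    rw [h2, ← Real.exp_nat_mul]
    congr 1
    ring
  rw [h3, h4, ← Real.exp_add]
  congr 1

/-- `x = n^b q^m = exp val` and `x ≥ exp (- m)` for a block. -/
lemma block_x_ge (hs : Std n q l lam) (hb : MinBlock F l lam K C) :
    Real.exp (- ((tch F K C).card : ℝ)) ≤ (n : ℝ) ^ C.card * q ^ (tch F K C).card := by
  rw [x_eq_exp hs]
  apply Real.exp_le_exp.2
  have := hb.val_ge
  linarith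

end Vale.Agent.Lib.P064H
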