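import Vale.Agent.Lib.P064E.Union2
import Vale.Agent.Lib.P064E.Dec

/-!
Definitions for the source count: rank, pattern, sources, the level bound with fixed pattern.
See notes/P064H_blueprint.md.
-/

open Finset

namespace Vale.Agent.Lib.P064H

open Vale.Agent.Lib.P064 Vale.Agent.Lib.P064E
open scoped Classical

variable {V α : Type} [Fintype V] [Fintype α]

/-- Out-neighbours of `v`: ends of edges of `U` at `v` of higher rank. -/
noncomputable def Out (r : V → ℕ) (U : Finset (Sym2 V)) (v : V) : Finset V :=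
  univ.filter fun w => s(v, w) ∈ U ∧ r v < r w

/-- An injective rank with at most 4 higher neighbours at each vertex. -/
structure Rank (r : V → ℕ) (U : Finset (Sym2 V)) : Prop where
  inj : Function.Injective r
  out : ∀ v, (Out r U v).card ≤ 4

/-- The neighbours of `y` in `K`. -/
noncomputable def nb (F : SimpleGraph α) (K : Finset α) (y : α) : Finset α :=
  K.filter fun z => F.Adj y z

/-- `π` is a valid pattern for `φ` on `Q`: at `y ∈ Q` either `π y = y` and `y` is below all its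
neighbours (a source), or `π y` is a neighbour of `y` below `y`. -/
def PatOK (F : SimpleGraph α) (K Q : Finset α) (r : V → ℕ) (π : α → α) (φ : α → V) : Prop :=
  ∀ y ∈ Q, (π y = y ∧ ∀ z ∈ nb F K y, r (φ y) < r (φ z)) ∨
    (π y ∈ nb F K y ∧ r (φ (π y)) < r (φ y))

/-- The sources of the pattern in `Q`. -/
noncomputable def Src (Q : Finset α) (π : α → α) : Finset α := Q.filter fun y => π y = y

/-- The level bound with fixed pattern: the bound counts only the sources. -/
def LevelP (F : SimpleGraph α) (H : SimpleGraph V) (l : ℝ) (K C : Finset α) (r : V → ℕ)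
    (Ustar : Finset (Sym2 V)) (s : ℕ) (B c : ℝ) : Prop :=
  ∀ Q ⊆ C, Q.Nonempty → Q.card ≤ s →
    ∀ (π : α → α) (S : Finset (α → V)) (U : Finset (Sym2 V)),
      (∀ φ ∈ S, IsEmb F H φ) →
      (∀ φ ∈ S, ∀ φ' ∈ S, ∀ x ∈ att F K Q, φ x = φ' x) →
      U ⊆ Ustar →
      (∀ φ ∈ S, tchIm F K Q φ ⊆ U) →
      (U.card : ℝ) ≤ 3 * ((tch F K Q).card : ℝ) * l →
      (∀ φ ∈ S, PatOK F K Q r π φ) →
      ((S.image (proj Q)).card : ℝ) ≤
        B ^ (Src Q π).card * Real.exp (c * ((tch F K Q).card : ℝ))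

/-- The bound to be multiplied along the chain: for a family agreeing on `K \ C`. -/
def BlockGoal (F : SimpleGraph α) (H : SimpleGraph V) (n : ℕ) (q Λ : ℝ) (K C : Finset α) : Prop :=
  ∀ S : Finset (α → V), (∀ φ ∈ S, IsEmb F H φ) → (∀ φ ∈ S, ∀ φ' ∈ S, ∀ x ∈ K \ C, φ x = φ' x) →
    ((S.image (proj K)).card : ℝ) ≤ ((n : ℝ) ^ C.card * q ^ (tch F K C).card) * Λ ^ (tch F K C).card

/-- The base of the levels: `scale l = ⌈log (l + 1)⌉ + 1`. -/
noncomputable def scale (l : ℝ) : ℕ := ⌈Real.log (l + 1)⌉₊ + 1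

/-- `baseB l = 6 l (⌈log (l + 1)⌉ + 1)`. -/
noncomputable def baseB (l : ℝ) : ℝ := 6 * l * scale l

/-- The factor per edge: `m₀` is the threshold on the number of edges. -/
noncomputable def Lam₀ (m₀ : ℕ) (l : ℝ) : ℝ :=
  Real.exp 70 * (m₀ : ℝ) ^ 2 * Real.sqrt (baseB l) * l ^ (1 / (m₀ : ℝ))

end Vale.Agent.Lib.P064H
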