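import Vale.Agent.Lib.P064H.Defs

/-!
The numeric bound of the per-edge factor.
-/

open Finset

namespace Vale.Agent.Lib.P064H

/-- For `δ > 0` there are `m₀` and `C₀` with `Lam₀ m₀ l ≤ C₀ (1 + l) ^ (1/2 + δ)` for `l ≥ 1`.
(`m₀ = ⌈2/δ⌉₊`; `baseB l ≤ 6 l (log (l + 1) + 2)`, `log (1 + l) ≤ (1 + l)^δ / δ`.) -/
lemma lam₀_le (δ : ℝ) (hδ : 0 < δ) :
    ∃ (m₀ : ℕ) (C₀ : ℝ), 1 ≤ m₀ ∧ 1 ≤ C₀ ∧ ∀ l : ℝ, 1 ≤ l →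
      Lam₀ m₀ l ≤ C₀ * (1 + l) ^ (1 / 2 + δ) := by
  sorry

end Vale.Agent.Lib.P064H
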