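import Vale.Agent.Lib.P064H.Chain
import Vale.Agent.Lib.P064H.FinalNum
import Vale.Agent.Lib.P064N.Final
import Vale.Agent.Lib.P064.SharpFinal

/-!
The final thresholds.
-/

open Finset

namespace Vale.Agent.Lib.P064H

open Vale.Agent.Lib.P064 Vale.Agent.Lib.P064E
open scoped Classical

/-- `p̃_E` and `p_c` against `p_E` with exponent `1/2 + δ`, with the near-critical additive term. -/
theorem half_thresholds (δ : ℝ) (hδ : 0 < δ) :
    ∃ C : ℝ, 0 < C ∧ ∀ n : ℕ, 3 ≤ n → ∀ (V : Type) [Fintype V] (H : SimpleGraph V),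
      Fintype.card V ≤ n → H ≠ ⊥ →
      pTilde n H ≤ C * (pE n H * (1 + Real.log n) ^ (1 / 2 + δ) + Real.log n / n) ∧
      pc n H ≤ C * Real.log n * (pE n H * (1 + Real.log n) ^ (1 / 2 + δ) + Real.log n / n) := by
  sorry

end Vale.Agent.Lib.P064H
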