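import Vale.Agent.Lib.P064H.Defs

/-!
The number of vertex sets generated from a given set `D` through the out-neighbours.
-/

open Finset

namespace Vale.Agent.Lib.P064H

open scoped Classical

variable {V : Type} [Fintype V]

/-- Sets `X ⊇ D` with `|X| ≤ k`, each element outside `D` an out-neighbour of an element of `X`:
at most `16 ^ k`. Proof: induct on `k`. If `D` is empty `X` is empty (its lowest element would have a lower
one). Else let `v` be the lowest element of `D`; it is the lowest element of every `X`.
`X ↦ (Out v ∩ X, X \ {v})` is injective, and `X \ {v}` is in the family for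
`D' = (D \ {v}) ∪ (Out v ∩ X)`, `k - 1`. -/
theorem gen_count {r : V → ℕ} {U : Finset (Sym2 V)} (hr : Rank r U) (k : ℕ) :
    ∀ (D : Finset V) (𝓧 : Finset (Finset V)),
      (∀ X ∈ 𝓧, D ⊆ X ∧ X.card ≤ k ∧ ∀ x ∈ X, x ∉ D → ∃ y ∈ X, x ∈ Out r U y) →
      𝓧.card ≤ 16 ^ k := by
  have hOut : ∀ {x y : V}, x ∈ Out r U y → r y < r x := by
    intro x y h
    exact (Finset.mem_filter.1 h).2.2
  have hempty : ∀ (D : Finset V) (X : Finset V), D = ∅ →
      (∀ x ∈ X, x ∉ D → ∃ y ∈ X, x ∈ Out r U y) → X = ∅ := by
    intro D X hD h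
    by_contra hX
    obtain ⟨x, hxX, hmin⟩ := Finset.exists_min_image X r (Finset.nonempty_iff_ne_empty.2 hX)
    obtain ⟨y, hy, hxy⟩ := h x hxX (by simp [hD])
    exact absurd (hOut hxy) (not_lt.2 (hmin y hy))
  induction k with
  | zero =>
    intro D 𝓧 h
    have hsub : 𝓧 ⊆ {∅} := by
      intro X hX
      have h0 := (h X hX).2.1
      rw [Finset.mem_singleton]
      exact Finset.card_eq_zero.1 (Nat.le_zero.1 h0)
    simpa using Finset.card_le_card hsub
  | succ k ih =>
    intro D 𝓧 h
    by_cases hD : D.Nonempty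
    · obtain ⟨v, hvD, hvmin⟩ := Finset.exists_min_image D r hD
      have hvX : ∀ X ∈ 𝓧, v ∈ X := fun X hX => (h X hX).1 hvD
      have hmaps : ∀ X ∈ 𝓧, Out r U v ∩ X ∈ (Out r U v).powerset := by
        intro X _
        exact Finset.mem_powerset.2 Finset.inter_subset_left
      have hfib : ∀ T ∈ (Out r U v).powerset,
          (𝓧.filter (fun X => Out r U v ∩ X = T)).card ≤ 16 ^ k := by
        intro T _
        have hinj : Set.InjOn (fun X : Finset V => X.erase v)
            (𝓧.filter (fun X => Out r U v ∩ X = T) : Finset (Finset V)) := by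
          intro X hX X' hX' hEq
          have h1 := hvX X (Finset.mem_filter.1 (Finset.mem_coe.1 hX)).1
          have h2 := hvX X' (Finset.mem_filter.1 (Finset.mem_coe.1 hX')).1
          have h3 : X.erase v = X'.erase v := hEq
          rw [← Finset.insert_erase h1, h3, Finset.insert_erase h2]
        rw [← Finset.card_image_of_injOn hinj]
        refine ih (D.erase v ∪ T) _ ?_
        intro Y hY
        obtain ⟨X, hX, rfl⟩ := Finset.mem_image.1 hY
        obtain ⟨hX𝓧, hXT⟩ := Finset.mem_filter.1 hX
        obtain ⟨hDX, hcard, hgen⟩ := h X hX𝓧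
        have hvin := hvX X hX𝓧
        refine ⟨?_, ?_, ?_⟩
        · intro x hx
          rcases Finset.mem_union.1 hx with hx | hx
          · obtain ⟨hne, hxD⟩ := Finset.mem_erase.1 hx
            exact Finset.mem_erase.2 ⟨hne, hDX hxD⟩
          · rw [← hXT] at hx
            obtain ⟨hxO, hxX⟩ := Finset.mem_inter.1 hx
            refine Finset.mem_erase.2 ⟨?_, hxX⟩
            rintro rfl
            exact lt_irrefl _ (hOut hxO)
        · rw [Finset.card_erase_of_mem hvin]
          omega
        · intro x hx hxD'
          obtain ⟨hne, hxX⟩ := Finset.mem_erase.1 hx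
          have hxD : x ∉ D := by
            intro hxD
            exact hxD' (Finset.mem_union_left _ (Finset.mem_erase.2 ⟨hne, hxD⟩))
          obtain ⟨y, hyX, hxy⟩ := hgen x hxX hxD
          by_cases hyv : y = v
          · subst hyv
            exfalso
            refine hxD' (Finset.mem_union_right _ ?_)
            rw [← hXT]
            exact Finset.mem_inter.2 ⟨hxy, hxX⟩
          · exact ⟨y, Finset.mem_erase.2 ⟨hyv, hyX⟩, hxy⟩
      have hmain := Finset.card_le_mul_card_image_of_maps_to hmaps (16 ^ k) hfib
      have hpow : ((Out r U v).powerset).card ≤ 16 := by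
        rw [Finset.card_powerset]
        calc 2 ^ (Out r U v).card ≤ 2 ^ 4 := Nat.pow_le_pow_right (by norm_num) (hr.out v)
          _ = 16 := by norm_num
      calc 𝓧.card ≤ 16 ^ k * ((Out r U v).powerset).card := hmain
        _ ≤ 16 ^ k * 16 := Nat.mul_le_mul_left _ hpow
        _ = 16 ^ (k + 1) := by ring
    · have hD0 : D = ∅ := Finset.not_nonempty_iff_eq_empty.1 hD
      have hsub : 𝓧 ⊆ {∅} := by
        intro X hX
        rw [Finset.mem_singleton]
        exact hempty D X hD0 (h X hX).2.2
      calc 𝓧.card ≤ ({∅} : Finset (Finset V)).card := Finset.card_le_card hsub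
        _ = 1 := by simp
        _ ≤ 16 ^ (k + 1) := Nat.one_le_pow _ _ (by norm_num)

end Vale.Agent.Lib.P064H
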