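import Vale.Agent.Lib.P064H.Closure
import Vale.Agent.Lib.P064H.Gen
import Vale.Agent.Lib.P064H.Tools

/-!
The number of image sets of the closed part.
-/

open Finset

namespace Vale.Agent.Lib.P064H

open Vale.Agent.Lib.P064 Vale.Agent.Lib.P064E
open scoped Classical

variable {V α : Type} [Fintype V] [Fintype α] {F : SimpleGraph α} {H : SimpleGraph V} {n : ℕ}
  {q l lam : ℝ} {K C Q Q₀ Lf : Finset α}

/-- Part 1: the number of image sets: `W = Z.image φ`, `φ ∈ S`. If `Z` is closed under `π` inside `Q`: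
`W ∪ A` (`A` the fixed image of `att F K Q`) is generated from `φ(Src Z π) ∪ A`, so by `gen_count`
there are at most `choose (|vs U|) (|Src Z π|) * 16 ^ (|Z| + |att|)` image sets. -/
theorem image_sets_count {r : V → ℕ} {Ustar U : Finset (Sym2 V)} (hr : Rank r Ustar)
    (hUU : U ⊆ Ustar) (hQK : Q ⊆ K) {Z : Finset α} (hZ : Z ⊆ Q) {π : α → α}
    (hcl : ∀ x ∈ Z, π x ∈ Q → π x ∈ Z) (S : Finset (α → V))
    (hemb : ∀ φ ∈ S, IsEmb F H φ)
    (hag : ∀ φ ∈ S, ∀ φ' ∈ S, ∀ x ∈ att F K Q, φ x = φ' x)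
    (hSU : ∀ φ ∈ S, tchIm F K Q φ ⊆ U)
    (hpat : ∀ φ ∈ S, PatOK F K Q r π φ)
    (hvs : ∀ φ ∈ S, ∀ y ∈ Src Z π, φ y ∈ vs U) :
    (S.image fun φ => Z.image φ).card ≤
      (vs U).card.choose (Src Z π).card * 16 ^ (Z.card + (att F K Q).card) := by
  rcases S.eq_empty_or_nonempty with rfl | ⟨φ₀, hφ₀⟩
  · simp
  set A := (att F K Q).image φ₀ with hA
  set k := Z.card + (att F K Q).card with hk
  have hattA : ∀ φ ∈ S, ∀ a ∈ att F K Q, φ a ∈ A := fun φ hφ a ha => by
    rw [hag φ hφ φ₀ hφ₀ a ha]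
    exact Finset.mem_image_of_mem _ ha
  have hAcard : A.card ≤ (att F K Q).card := Finset.card_image_le
  have hdisj : ∀ φ ∈ S, Disjoint (Z.image φ) A := by
    intro φ hφ
    rw [Finset.disjoint_left]
    intro x hx hxA
    obtain ⟨y, hy, rfl⟩ := Finset.mem_image.1 hx
    obtain ⟨a, ha, hEq⟩ := Finset.mem_image.1 hxA
    rw [← hag φ hφ φ₀ hφ₀ a ha] at hEq
    have h1 := (hemb φ hφ).1 hEq
    subst h1
    exact (mem_att.1 ha).2.1 (hZ hy)
  have hfib : ∀ D0 ∈ (vs U).powersetCard (Src Z π).card,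
      ((S.filter (fun φ => (Src Z π).image φ = D0)).image (fun φ => Z.image φ)).card ≤ 16 ^ k := by
    intro D0 _
    have hinjOn : Set.InjOn (fun W : Finset V => W ∪ A)
        (((S.filter (fun φ => (Src Z π).image φ = D0)).image (fun φ => Z.image φ) :
          Finset (Finset V)) : Set (Finset V)) := by
      intro W hW W' hW' hEq
      obtain ⟨φ, hφ, rfl⟩ := Finset.mem_image.1 (Finset.mem_coe.1 hW)
      obtain ⟨φ', hφ', rfl⟩ := Finset.mem_image.1 (Finset.mem_coe.1 hW')
      have hd := hdisj φ (Finset.mem_filter.1 hφ).1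
      have hd' := hdisj φ' (Finset.mem_filter.1 hφ').1
      have h2 : (Z.image φ ∪ A) = (Z.image φ' ∪ A) := hEq
      calc Z.image φ = (Z.image φ ∪ A) \ A := (Finset.union_sdiff_cancel_right hd).symm
        _ = (Z.image φ' ∪ A) \ A := by rw [h2]
        _ = Z.image φ' := Finset.union_sdiff_cancel_right hd'
    rw [← Finset.card_image_of_injOn hinjOn]
    refine gen_count hr k (D0 ∪ A) _ ?_
    intro X hX
    obtain ⟨W, hW, rfl⟩ := Finset.mem_image.1 hX
    obtain ⟨φ, hφ, rfl⟩ := Finset.mem_image.1 hW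
    obtain ⟨hφS, hφD⟩ := Finset.mem_filter.1 hφ
    refine ⟨?_, ?_, ?_⟩
    · apply Finset.union_subset_union_left
      rw [← hφD]
      exact Finset.image_subset_image (Finset.filter_subset _ _)
    · calc (Z.image φ ∪ A).card ≤ (Z.image φ).card + A.card := Finset.card_union_le _ _
        _ ≤ Z.card + (att F K Q).card := Nat.add_le_add Finset.card_image_le hAcard
    · intro x hx hxD
      have hxA : x ∉ A := fun h => hxD (Finset.mem_union_right _ h)
      have hxW : x ∈ Z.image φ := (Finset.mem_union.1 hx).resolve_right hxA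
      obtain ⟨y, hyZ, rfl⟩ := Finset.mem_image.1 hxW
      have hnotsrc : π y ≠ y := by
        intro h
        apply hxD
        apply Finset.mem_union_left
        rw [← hφD]
        exact Finset.mem_image_of_mem _ (Finset.mem_filter.2 ⟨hyZ, h⟩)
      have hp : π y ∈ nb F K y ∧ r (φ (π y)) < r (φ y) := by
        rcases hpat φ hφS y (hZ hyZ) with h | h
        · exact absurd h.1 hnotsrc
        · exact h
      obtain ⟨hzK, hadj⟩ := Finset.mem_filter.1 hp.1
      refine ⟨φ (π y), ?_, ?_⟩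
      · by_cases hzQ : π y ∈ Q
        · exact Finset.mem_union_left _ (Finset.mem_image_of_mem _ (hcl y hyZ hzQ))
        · exact Finset.mem_union_right _
            (hattA φ hφS _ (mem_att.2 ⟨hzK, hzQ, y, hZ hyZ, hadj⟩))
      · have hedge : s(y, π y) ∈ tch F K Q :=
          (mem_tch_pair hQK).2 ⟨hadj, hQK (hZ hyZ), hzK, Or.inl (hZ hyZ)⟩
        have h5 : Sym2.map φ s(y, π y) ∈ tchIm F K Q φ := Finset.mem_image_of_mem _ hedge
        rw [Sym2.map_mk] at h5
        have h6 := hUU (hSU φ hφS h5)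
        rw [Sym2.eq_swap] at h6
        exact Finset.mem_filter.2 ⟨Finset.mem_univ _, h6, hp.2⟩
  have hsub : S.image (fun φ => Z.image φ) ⊆ ((vs U).powersetCard (Src Z π).card).biUnion
      (fun D0 => (S.filter (fun φ => (Src Z π).image φ = D0)).image (fun φ => Z.image φ)) := by
    intro W hW
    obtain ⟨φ, hφ, rfl⟩ := Finset.mem_image.1 hW
    refine Finset.mem_biUnion.2 ⟨(Src Z π).image φ, ?_,
      Finset.mem_image_of_mem _ (Finset.mem_filter.2 ⟨hφ, rfl⟩)⟩
    refine Finset.mem_powersetCard.2 ⟨?_, Finset.card_image_of_injective _ (hemb φ hφ).1⟩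
    intro w hw
    obtain ⟨y, hy, rfl⟩ := Finset.mem_image.1 hw
    exact hvs φ hφ y hy
  calc (S.image fun φ => Z.image φ).card
      ≤ (((vs U).powersetCard (Src Z π).card).biUnion
        (fun D0 => (S.filter (fun φ => (Src Z π).image φ = D0)).image
          (fun φ => Z.image φ))).card := Finset.card_le_card hsub
    _ ≤ ∑ D0 ∈ (vs U).powersetCard (Src Z π).card,
        ((S.filter (fun φ => (Src Z π).image φ = D0)).image (fun φ => Z.image φ)).card :=
        Finset.card_biUnion_le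
    _ ≤ ∑ _D0 ∈ (vs U).powersetCard (Src Z π).card, 16 ^ k := Finset.sum_le_sum hfib
    _ = _ := by rw [Finset.sum_const, smul_eq_mul, Finset.card_powersetCard]

end Vale.Agent.Lib.P064H
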