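import Vale.Agent.Lib.P064H.CountZ

/-!
The step of the levels with fixed pattern.
-/

open Finset

namespace Vale.Agent.Lib.P064H

open Vale.Agent.Lib.P064 Vale.Agent.Lib.P064E
open scoped Classical

variable {V α : Type} [Fintype V] [Fintype α] {F : SimpleGraph α} {H : SimpleGraph V} {n : ℕ}
  {q l lam : ℝ} {K C : Finset α}

omit [Fintype α] in
/-- The sources split over `Z` and the parts. -/
lemma src_sum {Q Z : Finset α} {cut : Finset (Finset α)} {π : α → α} (hZQ : Z ⊆ Q)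
    (hsub : ∀ P ∈ cut, P ⊆ Q \ Z) (hcov : ∀ x ∈ Q \ Z, ∃ P ∈ cut, x ∈ P)
    (hdis : ∀ P ∈ cut, ∀ P' ∈ cut, P ≠ P' → Disjoint P P') :
    (Src Z π).card + ∑ P ∈ cut, (Src P π).card = (Src Q π).card := by
  have h1 : (cut.biUnion fun P => Src P π).card = ∑ P ∈ cut, (Src P π).card := by
    refine Finset.card_biUnion ?_
    intro P hP P' hP' hne
    exact Finset.disjoint_of_subset_left (Finset.filter_subset _ _)
      (Finset.disjoint_of_subset_right (Finset.filter_subset _ _) (hdis P hP P' hP' hne))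
  rw [← h1, ← Finset.card_union_of_disjoint]
  · congr 1
    ext x
    simp only [Src, Finset.mem_union, Finset.mem_filter, Finset.mem_biUnion]
    constructor
    · rintro (⟨hx, h⟩ | ⟨P, hP, hx, h⟩)
      · exact ⟨hZQ hx, h⟩
      · exact ⟨(Finset.mem_sdiff.1 (hsub P hP hx)).1, h⟩
    · rintro ⟨hx, h⟩
      by_cases hxZ : x ∈ Z
      · exact Or.inl ⟨hxZ, h⟩
      · obtain ⟨P, hP, hxP⟩ := hcov x (Finset.mem_sdiff.2 ⟨hx, hxZ⟩)
        exact Or.inr ⟨P, hP, hxP, h⟩
  · rw [Finset.disjoint_left]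
    intro x hx hx'
    obtain ⟨P, hP, hxP⟩ := Finset.mem_biUnion.1 hx'
    exact (Finset.mem_sdiff.1 (hsub P hP (Finset.mem_filter.1 hxP).1)).2 (Finset.mem_filter.1 hx).1

/-- Adding one part of the decomposition: the bound on the lifts over a fixed `D ⊇ Z`. -/
lemma part_bound (hG : GoodDensity n q H) (hs : Std n q l lam) (hb : MinBlock F l lam K C)
    {r : V → ℕ} {Ustar : Finset (Sym2 V)} {sz : ℕ} {B c : ℝ}
    (hlev : LevelP F H l K C r Ustar sz B c)
    {Q Z : Finset α} (hQC : Q ⊆ C) {cut : Finset (Finset α)}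
    (hcov : ∀ x ∈ Q \ Z, ∃ P ∈ cut, x ∈ P)
    (hna : ∀ P ∈ cut, ∀ P' ∈ cut, P ≠ P' → ∀ x ∈ P, ∀ y ∈ P', ¬ F.Adj x y)
    {P : Finset α} (hPparts : P ∈ cut) (hPsub : P ⊆ Q \ Z) (hPne : P.Nonempty)
    (hPcard : P.card ≤ sz) (hPneC : P ≠ C) {π : α → α} {S : Finset (α → V)}
    {U : Finset (Sym2 V)} (hemb : ∀ φ ∈ S, IsEmb F H φ)
    (hag : ∀ φ ∈ S, ∀ φ' ∈ S, ∀ x ∈ att F K Q, φ x = φ' x) (hUU : U ⊆ Ustar)
    (hSU : ∀ φ ∈ S, tchIm F K Q φ ⊆ U) (hpat : ∀ φ ∈ S, PatOK F K Q r π φ)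
    {D : Finset α} (hZD : Z ⊆ D) (φ₀ : α → V) :
    (((S.filter (fun φ => proj D φ = proj D φ₀)).image (proj (D ∪ P))).card : ℝ) ≤
      B ^ (Src P π).card * Real.exp (c * ((tch F K P).card : ℝ)) := by
  have hQK : Q ⊆ K := hQC.trans hb.sub
  have hPQ : P ⊆ Q := hPsub.trans Finset.sdiff_subset
  have hPK : P ⊆ K := hPQ.trans hQK
  have hPC' : P ⊆ C := hPQ.trans hQC
  set fib := S.filter (fun φ => proj D φ = proj D φ₀) with hfib
  have hfibS : fib ⊆ S := Finset.filter_subset _ _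
  have hfibD : ∀ φ ∈ fib, ∀ x ∈ D, φ x = φ₀ x := fun φ hφ x hx =>
    proj_eq_apply hx (Finset.mem_filter.1 hφ).2
  have hagD : ∀ φ ∈ fib, ∀ φ' ∈ fib, ∀ x ∈ D, φ x = φ' x := fun φ hφ φ' hφ' x hx => by
    rw [hfibD φ hφ x hx, hfibD φ' hφ' x hx]
  have h1 := card_image_proj_union_le (P := P) fib hagD
  have hembf : ∀ φ ∈ fib, IsEmb F H φ := fun φ hφ => hemb φ (hfibS hφ)
  have hagatt : ∀ φ ∈ fib, ∀ φ' ∈ fib, ∀ x ∈ att F K P, φ x = φ' x := by
    intro φ hφ φ' hφ' x hx
    obtain ⟨hxK, hxP, c', hc', hadj⟩ := mem_att.1 hx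
    by_cases hxQ : x ∈ Q
    · by_cases hxZ : x ∈ Z
      · exact hagD φ hφ φ' hφ' x (hZD hxZ)
      · exfalso
        obtain ⟨P', hP', hxP'⟩ := hcov x (Finset.mem_sdiff.2 ⟨hxQ, hxZ⟩)
        by_cases hPP' : P = P'
        · exact hxP (hPP' ▸ hxP')
        · exact hna P hPparts P' hP' hPP' c' hc' x hxP' hadj
    · refine hag φ (hfibS hφ) φ' (hfibS hφ') x ?_
      exact mem_att.2 ⟨hxK, hxQ, c', hPQ hc', hadj⟩
  have hUstar : fib.biUnion (tchIm F K P) ⊆ Ustar := by
    intro e he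
    obtain ⟨φ, hφ, heφ⟩ := Finset.mem_biUnion.1 he
    apply hUU
    apply hSU φ (hfibS hφ)
    exact Finset.image_subset_image (tch_mono hPQ hQK) heφ
  have hcard := local_union hG hs hb hPC' hPne hPneC fib hembf hagatt
  have hl0 : 0 ≤ l := by linarith [hs.l1]
  have hcard3 : ((fib.biUnion (tchIm F K P)).card : ℝ) ≤
      3 * ((tch F K P).card : ℝ) * l := by
    have h3 : (0 : ℝ) ≤ ((tch F K P).card : ℝ) * l := by positivity
    linarith
  have h2 := hlev P hPC' hPne hPcard π fib (fib.biUnion (tchIm F K P)) hembf hagatt hUstar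
    (fun φ hφ => Finset.subset_biUnion_of_mem (tchIm F K P) hφ) hcard3
    (fun φ hφ y hy => hpat φ (hfibS hφ) y (hPQ hy))
  exact le_trans (by exact_mod_cast h1) h2

/-- The induction over the parts. -/
lemma parts_bound (hG : GoodDensity n q H) (hs : Std n q l lam) (hb : MinBlock F l lam K C)
    {r : V → ℕ} {Ustar : Finset (Sym2 V)} {sz : ℕ} {B c : ℝ} (hB0 : 0 ≤ B)
    (hlev : LevelP F H l K C r Ustar sz B c)
    {Q Z : Finset α} (hQC : Q ⊆ C) (hQs : sz < Q.card) {cut : Finset (Finset α)}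
    (hprops : ∀ P ∈ cut, P ⊆ Q \ Z ∧ P.Nonempty ∧ P.card ≤ sz)
    (hcov : ∀ x ∈ Q \ Z, ∃ P ∈ cut, x ∈ P)
    (hna : ∀ P ∈ cut, ∀ P' ∈ cut, P ≠ P' → ∀ x ∈ P, ∀ y ∈ P', ¬ F.Adj x y)
    {π : α → α} {S : Finset (α → V)}
    {U : Finset (Sym2 V)} (hemb : ∀ φ ∈ S, IsEmb F H φ)
    (hag : ∀ φ ∈ S, ∀ φ' ∈ S, ∀ x ∈ att F K Q, φ x = φ' x) (hUU : U ⊆ Ustar)
    (hSU : ∀ φ ∈ S, tchIm F K Q φ ⊆ U) (hpat : ∀ φ ∈ S, PatOK F K Q r π φ) :
    ∀ Pp : Finset (Finset α), Pp ⊆ cut →
      ((S.image (proj (Z ∪ Pp.biUnion id))).card : ℝ) ≤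
        (∏ P ∈ Pp, (B ^ (Src P π).card * Real.exp (c * ((tch F K P).card : ℝ)))) *
          (S.image (proj Z)).card := by
  intro Pp
  induction Pp using Finset.induction_on with
  | empty =>
    intro _
    simp
  | insert P Pp' hP ih =>
    intro hsub
    have hPparts : P ∈ cut := hsub (Finset.mem_insert_self _ _)
    have ih' := ih ((Finset.subset_insert _ _).trans hsub)
    obtain ⟨hPsub, hPne, hPcard⟩ := hprops P hPparts
    have hPneC : P ≠ C := by
      rintro rfl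
      have := Finset.card_le_card hQC
      omega
    set D := Z ∪ Pp'.biUnion id with hDdef
    have hD' : Z ∪ (insert P Pp').biUnion id = D ∪ P := by
      ext x
      simp only [hDdef, Finset.mem_union, Finset.mem_biUnion, Finset.mem_insert, id]
      constructor
      · rintro (h | ⟨P', h1 | h1, h2⟩)
        · exact Or.inl (Or.inl h)
        · exact Or.inr (h1 ▸ h2)
        · exact Or.inl (Or.inr ⟨P', h1, h2⟩)
      · rintro ((h | ⟨P', h1, h2⟩) | h)
        · exact Or.inl h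
        · exact Or.inr ⟨P', Or.inr h1, h2⟩
        · exact Or.inr ⟨P, Or.inl rfl, h⟩
    rw [hD', Finset.prod_insert hP]
    have hBP : 0 ≤ B ^ (Src P π).card * Real.exp (c * ((tch F K P).card : ℝ)) := by positivity
    have hstep := card_image_proj_step_real S (Finset.subset_union_left : D ⊆ D ∪ P) hBP
      (fun φ₀ _ => part_bound hG hs hb hlev hQC hcov hna hPparts hPsub hPne hPcard hPneC
        hemb hag hUU hSU hpat Finset.subset_union_left φ₀)
    calc ((S.image (proj (D ∪ P))).card : ℝ)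
        ≤ (B ^ (Src P π).card * Real.exp (c * ((tch F K P).card : ℝ))) *
            (S.image (proj D)).card := hstep
      _ ≤ (B ^ (Src P π).card * Real.exp (c * ((tch F K P).card : ℝ))) *
          ((∏ P ∈ Pp', (B ^ (Src P π).card * Real.exp (c * ((tch F K P).card : ℝ)))) *
            (S.image (proj Z)).card) := mul_le_mul_of_nonneg_left ih' hBP
      _ = _ := by ring

/-- Step: decomposition with `sz`, `Z = piClosure Q Q₀ π`, `count_Z`, then add the parts of
`cutParts parts Z` one at a time as in the old `level_step` (`Lib/P064E/LevelStep.lean`), with `B ^ |Src P π|`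
instead of `B ^ |P|`. `|Src Q π| = |Src Z π| + ∑ |Src P π|`. -/
theorem level_step (hG : GoodDensity n q H) (hs : Std n q l lam) (hlam : l ≤ 2 * lam)
    (hb : MinBlock F l lam K C) (h2 : 2 ≤ C.card)
    {r : V → ℕ} {Ustar : Finset (Sym2 V)} (hr : Rank r Ustar) (hUH : ∀ e ∈ Ustar, e ∈ H.edgeSet)
    {sz s' : ℕ} (hs1 : 1 ≤ sz) (hss : Real.log s' ≤ sz) {B c : ℝ}
    (hB : 6 * l ≤ B) (hc : 0 ≤ c)
    (hlev : LevelP F H l K C r Ustar sz B c) :
    LevelP F H l K C r Ustar s' B (c + 28) := by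
  intro Q hQC hQne hQs' π S U hemb hag hUU hSU hUcard hpat
  have hl1 := hs.l1
  have hl0 : 0 < l := by linarith
  have hB0 : 0 < B := by linarith
  have hQK : Q ⊆ K := hQC.trans hb.sub
  set e : ℝ := ((tch F K Q).card : ℝ) with he
  have he0 : 0 ≤ e := Nat.cast_nonneg _
  by_cases hQs : Q.card ≤ sz
  · refine (hlev Q hQC hQne hQs π S U hemb hag hUU hSU hUcard hpat).trans ?_
    have h3 : Real.exp (c * e) ≤ Real.exp ((c + 28) * e) := by
      apply Real.exp_le_exp.2
      nlinarith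
    exact mul_le_mul_of_nonneg_left h3 (by positivity)
  push Not at hQs
  obtain ⟨Q₀, Lf, p, parts, hd⟩ := exists_treeDec F Q sz hs1
  have hZQ : piClosure Q Q₀ π ⊆ Q := piClosure_sub Q Q₀ π
  obtain ⟨hprops, hcov, hdis, hna⟩ := cutParts_props hd (sub_piClosure π hd.sub) hZQ
  have hZcount := count_Z hG hs hlam hb h2 hss hQC hQne hQs' hd hr hUH hUU S hemb hag hSU hUcard hpat
  have key := parts_bound hG hs hb hB0.le hlev hQC hQs hprops hcov hna hemb hag hUU hSU hpat
    (cutParts parts (piClosure Q Q₀ π)) (Finset.Subset.refl _)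
  have hQeq : piClosure Q Q₀ π ∪ (cutParts parts (piClosure Q Q₀ π)).biUnion id = Q := by
    ext x
    simp only [Finset.mem_union, Finset.mem_biUnion, id]
    constructor
    · rintro (h | ⟨P, hP, hx⟩)
      · exact hZQ h
      · exact Finset.sdiff_subset ((hprops P hP).1 hx)
    · intro hx
      by_cases hx0 : x ∈ piClosure Q Q₀ π
      · exact Or.inl hx0
      · exact Or.inr (hcov x (Finset.mem_sdiff.2 ⟨hx, hx0⟩))
  rw [hQeq] at key
  have hsrc := src_sum (π := π) hZQ (fun P hP => (hprops P hP).1) hcov hdis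
  have htchsum := sum_tch_parts_le (F := F) (K := K) hQK (fun P hP => (hprops P hP).1) hdis hna
  have htchsum' : ∑ P ∈ cutParts parts (piClosure Q Q₀ π), ((tch F K P).card : ℝ) ≤ e := by
    rw [he]
    exact_mod_cast htchsum
  have hprod : (∏ P ∈ cutParts parts (piClosure Q Q₀ π),
      (B ^ (Src P π).card * Real.exp (c * ((tch F K P).card : ℝ)))) ≤
      B ^ (∑ P ∈ cutParts parts (piClosure Q Q₀ π), (Src P π).card) * Real.exp (c * e) := by
    rw [Finset.prod_mul_distrib, Finset.prod_pow_eq_pow_sum, ← Real.exp_sum, ← Finset.mul_sum]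
    gcongr
  have hfin : (6 * l) ^ (Src (piClosure Q Q₀ π) π).card ≤ B ^ (Src (piClosure Q Q₀ π) π).card :=
    pow_le_pow_left₀ (by positivity) hB _
  calc ((S.image (proj Q)).card : ℝ)
      ≤ (∏ P ∈ cutParts parts (piClosure Q Q₀ π),
          (B ^ (Src P π).card * Real.exp (c * ((tch F K P).card : ℝ)))) *
          (S.image (proj (piClosure Q Q₀ π))).card := key
    _ ≤ (B ^ (∑ P ∈ cutParts parts (piClosure Q Q₀ π), (Src P π).card) * Real.exp (c * e)) *
          (B ^ (Src (piClosure Q Q₀ π) π).card * Real.exp (28 * e)) := by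
        apply mul_le_mul hprod (hZcount.trans _) (Nat.cast_nonneg _) (by positivity)
        exact mul_le_mul_of_nonneg_right hfin (Real.exp_pos _).le
    _ = B ^ (Src Q π).card * Real.exp ((c + 28) * e) := by
        rw [← hsrc, pow_add, show (c + 28) * e = c * e + 28 * e by ring, Real.exp_add]
        ring

end Vale.Agent.Lib.P064H
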