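import Vale.Agent.Lib.P064H.LevelBase
import Vale.Agent.Lib.P064H.LevelStep

/-!
The top of the levels with fixed pattern.
-/

open Finset

namespace Vale.Agent.Lib.P064H

open Vale.Agent.Lib.P064 Vale.Agent.Lib.P064E
open scoped Classical

variable {V α : Type} [Fintype V] [Fintype α] {F : SimpleGraph α} {H : SimpleGraph V} {n : ℕ}
  {q l lam : ℝ} {K C : Finset α}

/-- Top: `level_base` at `scale l`, `level_step` to `⌈l⌉₊`, `level_step` to `n`. -/
theorem level_top (hG : GoodDensity n q H) (hs : Std n q l lam) (hlam : l ≤ 2 * lam)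
    (hb : MinBlock F l lam K C) (h2 : 2 ≤ C.card)
    {r : V → ℕ} {Ustar : Finset (Sym2 V)} (hr : Rank r Ustar) (hUH : ∀ e ∈ Ustar, e ∈ H.edgeSet) :
    LevelP F H l K C r Ustar n (baseB l) 60 := by
  have hl1 := hs.l1
  have hl0 : 0 < l := by linarith
  have hsc1 : 1 ≤ scale l := by
    unfold scale
    omega
  have hsc1R : (1 : ℝ) ≤ scale l := by exact_mod_cast hsc1
  have hB : 6 * l ≤ baseB l := by
    unfold baseB
    nlinarith
  have h1 : LevelP F H l K C r Ustar (scale l) (baseB l) 4 := level_base hs hb h2 hr (scale l) hsc1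
  have hceil1 : 1 ≤ ⌈l⌉₊ := Nat.one_le_ceil_iff.2 hl0
  have hlog1 : Real.log (⌈l⌉₊ : ℝ) ≤ (scale l : ℝ) := by
    have h3 : ((⌈l⌉₊ : ℕ) : ℝ) ≤ l + 1 := (Nat.ceil_lt_add_one hl0.le).le
    have h4 : Real.log (⌈l⌉₊ : ℝ) ≤ Real.log (l + 1) :=
      Real.log_le_log (by exact_mod_cast hceil1) h3
    have h5 : Real.log (l + 1) ≤ (⌈Real.log (l + 1)⌉₊ : ℝ) := Nat.le_ceil _
    unfold scale
    push_cast
    linarith
  have h6 : LevelP F H l K C r Ustar ⌈l⌉₊ (baseB l) (4 + 28) :=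
    level_step hG hs hlam hb h2 hr hUH hsc1 hlog1 hB (by norm_num) h1
  have hlog2 : Real.log (n : ℝ) ≤ (⌈l⌉₊ : ℝ) := by
    rw [← hs.l_eq]
    exact Nat.le_ceil _
  have h7 : LevelP F H l K C r Ustar n (baseB l) (4 + 28 + 28) :=
    level_step hG hs hlam hb h2 hr hUH hceil1 hlog2 hB (by norm_num) h6
  have h8 : (4 + 28 + 28 : ℝ) = 60 := by norm_num
  rwa [h8] at h7

end Vale.Agent.Lib.P064H
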