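import Vale.Agent.Lib.P064H.Tools

/-!
Patterns: sources are independent and few, and every embedding has a pattern.
-/

open Finset

namespace Vale.Agent.Lib.P064H

open Vale.Agent.Lib.P064 Vale.Agent.Lib.P064E
open scoped Classical

variable {V α : Type} [Fintype V] [Fintype α] {F : SimpleGraph α} {H : SimpleGraph V} {n : ℕ}
  {q l lam : ℝ} {K Q C : Finset α}

omit [Fintype V] [Fintype α] in
/-- A source is below all its neighbours. -/
lemma src_source {r : V → ℕ} {π : α → α} {φ : α → V} (hpat : PatOK F K Q r π φ) {y : α}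
    (hy : y ∈ Src Q π) : ∀ z ∈ nb F K y, r (φ y) < r (φ z) := by
  obtain ⟨hyQ, hπ⟩ := Finset.mem_filter.1 hy
  rcases hpat y hyQ with h | h
  · exact h.2
  · exfalso
    rw [hπ] at h
    exact (Finset.mem_filter.1 h.1).2.ne rfl

/-- The sources in a subset of a block touch at least two edges each, and these sets are disjoint since
sources are non adjacent: `2 |Src| ≤ e_Q`. Uses `MinBlock.single_neg` (`d_y ≥ 2` since `lam - 1 < l`). -/
theorem two_mul_src_le (hs : Std n q l lam) (hb : MinBlock F l lam K C) (h2 : 2 ≤ C.card)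
    (hQC : Q ⊆ C) {r : V → ℕ} (hr : Function.Injective r) {π : α → α} {φ : α → V}
    (hφ : Function.Injective φ) (hpat : PatOK F K Q r π φ) :
    2 * (Src Q π).card ≤ (tch F K Q).card := by
  have hQK : Q ⊆ K := hQC.trans hb.sub
  have hdeg : ∀ y ∈ Src Q π, 2 ≤ (tch F K {y}).card := by
    intro y hy
    have hyQ := (Finset.mem_filter.1 hy).1
    have h3 := hb.single_neg h2 (hQC hyQ)
    by_contra hlt
    have h4 : (tch F K {y}).card ≤ 1 := by omega
    have h5 : ((tch F K {y}).card : ℝ) ≤ 1 := by exact_mod_cast h4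
    have h6 := hs.lam_le
    have h7 := hs.lam1
    have h8 := hs.l1
    nlinarith
  have hsum := sum_tch_parts_le (F := F) (K := K) (Q := Q) (Q₀ := ∅)
    (parts := (Src Q π).image (fun y => ({y} : Finset α))) hQK
    (by
      intro P hP
      obtain ⟨y, hy, rfl⟩ := Finset.mem_image.1 hP
      intro z hz
      rw [Finset.mem_singleton] at hz
      subst hz
      simpa using (Finset.mem_filter.1 hy).1)
    (by
      intro P hP P' hP' hne
      obtain ⟨y, _, rfl⟩ := Finset.mem_image.1 hP
      obtain ⟨y', _, rfl⟩ := Finset.mem_image.1 hP'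
      rw [Finset.disjoint_singleton]
      intro h
      exact hne (by rw [h]))
    (by
      intro P hP P' hP' _ x hx y hy hadj
      obtain ⟨a, ha, rfl⟩ := Finset.mem_image.1 hP
      obtain ⟨b, hb', rfl⟩ := Finset.mem_image.1 hP'
      rw [Finset.mem_singleton] at hx hy
      subst hx hy
      have haK := hQK (Finset.mem_filter.1 ha).1
      have hbK := hQK (Finset.mem_filter.1 hb').1
      have h3 := src_source hpat ha y (Finset.mem_filter.2 ⟨hbK, hadj⟩)
      have h4 := src_source hpat hb' x (Finset.mem_filter.2 ⟨haK, hadj.symm⟩)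
      omega)
  rw [Finset.sum_image (fun x _ y _ h => Finset.singleton_injective h)] at hsum
  calc 2 * (Src Q π).card = ∑ _y ∈ Src Q π, 2 := by
        rw [Finset.sum_const, smul_eq_mul, mul_comm]
    _ ≤ ∑ y ∈ Src Q π, (tch F K {y}).card := Finset.sum_le_sum hdeg
    _ ≤ _ := hsum

omit [Fintype V] in
/-- Neighbours are at most the edges touching. -/
lemma card_nb_le {y : α} (hy : y ∈ K) : (nb F K y).card ≤ (tch F K {y}).card := by
  refine Finset.card_le_card_of_injOn (fun z => s(y, z)) ?_ ?_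
  · intro z hz
    obtain ⟨hzK, hadj⟩ := Finset.mem_filter.1 (Finset.mem_coe.1 hz)
    refine Finset.mem_coe.2 ((mem_tch_pair (Finset.singleton_subset_iff.2 hy)).2
      ⟨hadj, hy, hzK, Or.inl (Finset.mem_singleton_self y)⟩)
  · intro a _ b _ h
    exact Sym2.congr_right.1 h

/-- Every embedding has a pattern among the allowed ones. -/
lemma exists_pattern {r : V → ℕ} (hr : Function.Injective r) {φ : α → V}
    (hφ : Function.Injective φ) :
    ∃ π : α → α, PatOK F K Q r π φ ∧
      π ∈ Fintype.piFinset (fun y => if y ∈ Q then insert y (nb F K y) else {y}) := by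
  have h : ∀ y, ∃ z, (y ∈ Q → (z = y ∧ ∀ w ∈ nb F K y, r (φ y) < r (φ w)) ∨
      (z ∈ nb F K y ∧ r (φ z) < r (φ y))) ∧ (y ∉ Q → z = y) := by
    intro y
    by_cases hyQ : y ∈ Q
    · by_cases hsrc : ∀ w ∈ nb F K y, r (φ y) < r (φ w)
      · exact ⟨y, fun _ => Or.inl ⟨rfl, hsrc⟩, fun h => absurd hyQ h⟩
      · push Not at hsrc
        obtain ⟨w, hw, hle⟩ := hsrc
        refine ⟨w, fun _ => Or.inr ⟨hw, ?_⟩, fun h => absurd hyQ h⟩
        have hne : w ≠ y := (Finset.mem_filter.1 hw).2.ne.symm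
        have hne2 : r (φ w) ≠ r (φ y) := fun h => hne (hφ (hr h))
        omega
    · exact ⟨y, fun h => absurd h hyQ, fun _ => rfl⟩
  choose π hπ1 hπ2 using h
  refine ⟨π, ?_, ?_⟩
  · intro y hy
    exact hπ1 y hy
  · refine Fintype.mem_piFinset.2 ?_
    intro y
    by_cases hyQ : y ∈ Q
    · rw [if_pos hyQ]
      rcases hπ1 y hyQ with h | h
      · rw [h.1]
        exact Finset.mem_insert_self _ _
      · exact Finset.mem_insert_of_mem h.1
    · rw [if_neg hyQ, hπ2 y hyQ]
      exact Finset.mem_singleton_self y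

/-- There are at most `4 ^ e_Q` allowed patterns. -/
lemma card_patterns_le (hQK : Q ⊆ K) :
    (Fintype.piFinset (fun y => if y ∈ Q then insert y (nb F K y) else ({y} : Finset α))).card
      ≤ 4 ^ (tch F K Q).card := by
  rw [Fintype.card_piFinset]
  have h1 : ∀ y ∈ (Finset.univ : Finset α),
      (if y ∈ Q then insert y (nb F K y) else ({y} : Finset α)).card ≤
        2 ^ (if y ∈ Q then (tch F K {y}).card else 0) := by
    intro y _
    by_cases hyQ : y ∈ Q
    · rw [if_pos hyQ, if_pos hyQ]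
      have h2 := Finset.card_insert_le y (nb F K y)
      have h3 := card_nb_le (F := F) (hQK hyQ)
      have h4 : (tch F K {y}).card < 2 ^ (tch F K {y}).card := Nat.lt_two_pow_self
      omega
    · rw [if_neg hyQ, if_neg hyQ]
      simp
  have h5 := Finset.prod_le_prod' h1
  refine h5.trans ?_
  rw [Finset.prod_pow_eq_pow_sum, Finset.sum_ite_mem, Finset.univ_inter]
  have h6 := sum_tch_single_le (F := F) hQK
  calc 2 ^ ∑ y ∈ Q, (tch F K {y}).card ≤ 2 ^ (2 * (tch F K Q).card) :=
        Nat.pow_le_pow_right (by norm_num) h6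
    _ = 4 ^ (tch F K Q).card := by rw [pow_mul]; norm_num

/-- Sum over patterns: every embedding has a pattern, and there are at most `4 ^ e_Q` patterns
(functions `π` with `π y = y` off `Q` and `π y ∈ {y} ∪ nb F K y` on `Q`; `1 + d ≤ 2 ^ d`,
`∑ d_y ≤ 2 e_Q` by `sum_tch_single_le`). -/
theorem pattern_sum (hQK : Q ⊆ K) {r : V → ℕ} (hr : Function.Injective r) (S : Finset (α → V))
    (hemb : ∀ φ ∈ S, IsEmb F H φ) {N : ℝ} (hN0 : 0 ≤ N)
    (hN : ∀ (π : α → α) (S' : Finset (α → V)), S' ⊆ S → (∀ φ ∈ S', PatOK F K Q r π φ) →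
      ((S'.image (proj Q)).card : ℝ) ≤ N) :
    ((S.image (proj Q)).card : ℝ) ≤ 4 ^ (tch F K Q).card * N := by
  set P := Fintype.piFinset (fun y => if y ∈ Q then insert y (nb F K y) else ({y} : Finset α))
    with hP
  have hsub : S.image (proj Q) ⊆
      P.biUnion (fun π => (S.filter (fun φ => PatOK F K Q r π φ)).image (proj Q)) := by
    intro ψ hψ
    obtain ⟨φ, hφ, rfl⟩ := Finset.mem_image.1 hψ
    obtain ⟨π, hπ, hπP⟩ := exists_pattern (F := F) (K := K) (Q := Q) hr (hemb φ hφ).1
    exact Finset.mem_biUnion.2 ⟨π, hπP,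
      Finset.mem_image_of_mem _ (Finset.mem_filter.2 ⟨hφ, hπ⟩)⟩
  have h1 : (S.image (proj Q)).card ≤
      ∑ π ∈ P, ((S.filter (fun φ => PatOK F K Q r π φ)).image (proj Q)).card :=
    (Finset.card_le_card hsub).trans Finset.card_biUnion_le
  have h2 : ((S.image (proj Q)).card : ℝ) ≤
      ∑ π ∈ P, (((S.filter (fun φ => PatOK F K Q r π φ)).image (proj Q)).card : ℝ) := by
    exact_mod_cast h1
  have h3 : ∑ π ∈ P, (((S.filter (fun φ => PatOK F K Q r π φ)).image (proj Q)).card : ℝ) ≤
      ∑ _π ∈ P, N := by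
    refine Finset.sum_le_sum ?_
    intro π _
    exact hN π _ (Finset.filter_subset _ _) (fun φ hφ => (Finset.mem_filter.1 hφ).2)
  rw [Finset.sum_const, nsmul_eq_mul] at h3
  have h4 : (P.card : ℝ) ≤ 4 ^ (tch F K Q).card := by
    have := card_patterns_le (F := F) hQK
    exact_mod_cast this
  calc ((S.image (proj Q)).card : ℝ) ≤ (P.card : ℝ) * N := h2.trans h3
    _ ≤ _ := mul_le_mul_of_nonneg_right h4 hN0

end Vale.Agent.Lib.P064H
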