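import Vale.Agent.Lib.P064H.Defs

/-!
Degeneracy: when `l ≤ 2 lam` every set of edges of `H` has a rank with out-degree at most 4.
-/

open Finset

namespace Vale.Agent.Lib.P064H

open Vale.Agent.Lib.P064 Vale.Agent.Lib.P064E
open scoped Classical

variable {V : Type} [Fintype V] {H : SimpleGraph V} {n : ℕ} {q l lam : ℝ}

/-- A nonempty vertex set has a vertex with at most 4 neighbours inside (handshake + density). -/
lemma exists_low (hG : GoodDensity n q H) (hs : Std n q l lam) (hlam : l ≤ 2 * lam)
    (U : Finset (Sym2 V)) (hU : ∀ e ∈ U, e ∈ H.edgeSet) (W : Finset V) (hW : W.Nonempty) :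
    ∃ v ∈ W, (W.filter fun w => s(v, w) ∈ U).card ≤ 4 := by
  by_contra hcon
  push_neg at hcon
  set P := (W ×ˢ W).filter (fun p : V × V => s(p.1, p.2) ∈ U) with hP
  set T := P.image (fun p : V × V => s(p.1, p.2)) with hT
  have hTU : ∀ e ∈ T, e ∈ H.edgeSet := by
    intro e he
    obtain ⟨p, hp, rfl⟩ := Finset.mem_image.1 he
    exact hU _ (Finset.mem_filter.1 hp).2
  have hvs : (vs T).card ≤ W.card := by
    apply Finset.card_le_card
    intro x hx
    obtain ⟨e, he, hxe⟩ := Finset.mem_biUnion.1 hx
    obtain ⟨p, hp, rfl⟩ := Finset.mem_image.1 he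
    have h1 := (Finset.mem_filter.1 hp).1
    have h2 := Finset.mem_product.1 h1
    rw [Sym2.mem_toFinset, Sym2.mem_iff] at hxe
    rcases hxe with rfl | rfl
    · exact h2.1
    · exact h2.2
  have hd := density_log hG hs T hTU
  have hTcard : T.card ≤ 2 * W.card := by
    have h1 := hs.lam1
    have h3 : ((vs T).card : ℝ) ≤ W.card := by exact_mod_cast hvs
    have h4 : 0 ≤ l := by linarith [hs.l1]
    have h5 : ((vs T).card : ℝ) * l ≤ (W.card : ℝ) * (2 * lam) :=
      mul_le_mul h3 hlam h4 (Nat.cast_nonneg _)
    have h2 : (T.card : ℝ) * lam ≤ (2 * (W.card : ℝ)) * lam := by nlinarith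
    have h6 := le_of_mul_le_mul_right h2 (by linarith)
    exact_mod_cast h6
  have hPcard : P.card ≤ 2 * T.card := by
    refine Finset.card_le_mul_card_image P 2 ?_
    intro e _
    induction e using Sym2.ind with
    | _ a b =>
      have hsub : P.filter (fun p : V × V => s(p.1, p.2) = s(a, b)) ⊆ {(a, b), (b, a)} := by
        intro p hp
        have h7 := (Finset.mem_filter.1 hp).2
        rw [Sym2.eq_iff] at h7
        rw [Finset.mem_insert, Finset.mem_singleton]
        rcases h7 with ⟨h8, h9⟩ | ⟨h8, h9⟩
        · left; exact Prod.ext h8 h9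
        · right; exact Prod.ext h8 h9
      exact (Finset.card_le_card hsub).trans Finset.card_le_two
  have hsum : P.card = ∑ v ∈ W, (W.filter fun w => s(v, w) ∈ U).card := by
    rw [hP, Finset.card_filter, Finset.sum_product]
    refine Finset.sum_congr rfl ?_
    intro v _
    rw [Finset.card_filter]
  have hge : ∑ _v ∈ W, 5 ≤ ∑ v ∈ W, (W.filter fun w => s(v, w) ∈ U).card := by
    refine Finset.sum_le_sum ?_
    intro v hv
    exact hcon v hv
  rw [Finset.sum_const, smul_eq_mul] at hge
  have hpos : 0 < W.card := Finset.card_pos.2 hW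
  omega

lemma exists_rank_on (hG : GoodDensity n q H) (hs : Std n q l lam) (hlam : l ≤ 2 * lam)
    (U : Finset (Sym2 V)) (hU : ∀ e ∈ U, e ∈ H.edgeSet) (W : Finset V) :
    ∃ r : V → ℕ, Set.InjOn r W ∧
      ∀ v ∈ W, (W.filter fun w => s(v, w) ∈ U ∧ r v < r w).card ≤ 4 := by
  induction W using Finset.strongInduction with
  | H W ih =>
    rcases W.eq_empty_or_nonempty with rfl | hW
    · exact ⟨fun _ => 0, by simp, by simp⟩
    · obtain ⟨v, hv, hlow⟩ := exists_low hG hs hlam U hU W hW
      obtain ⟨r', hinj, hout⟩ := ih (W.erase v) (Finset.erase_ssubset hv)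
      refine ⟨fun x => if x = v then 0 else r' x + 1, ?_, ?_⟩
      · intro x hx y hy hxy
        have hx' := Finset.mem_coe.1 hx
        have hy' := Finset.mem_coe.1 hy
        by_cases hxv : x = v
        · by_cases hyv : y = v
          · rw [hxv, hyv]
          · simp only [if_pos hxv, if_neg hyv] at hxy
            omega
        · by_cases hyv : y = v
          · simp only [if_neg hxv, if_pos hyv] at hxy
            omega
          · simp only [if_neg hxv, if_neg hyv] at hxy
            exact hinj (Finset.mem_coe.2 (Finset.mem_erase.2 ⟨hxv, hx'⟩))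
              (Finset.mem_coe.2 (Finset.mem_erase.2 ⟨hyv, hy'⟩)) (by omega)
      · intro x hx
        by_cases hxv : x = v
        · subst hxv
          refine (Finset.card_le_card ?_).trans hlow
          intro w hw
          obtain ⟨hw1, hw2, _⟩ := Finset.mem_filter.1 hw
          exact Finset.mem_filter.2 ⟨hw1, hw2⟩
        · refine (Finset.card_le_card ?_).trans (hout x (Finset.mem_erase.2 ⟨hxv, hx⟩))
          intro w hw
          obtain ⟨hw1, hw2, hw3⟩ := Finset.mem_filter.1 hw
          have hwv : w ≠ v := by
            rintro rfl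
            simp only [if_neg hxv, if_true] at hw3
            omega
          simp only [if_neg hxv, if_neg hwv] at hw3
          exact Finset.mem_filter.2 ⟨Finset.mem_erase.2 ⟨hwv, hw1⟩, hw2, by omega⟩

/-- Every set of edges of `H` has an injective rank with at most 4 higher neighbours. Proof: induct on
a vertex set `W`: the edges of `U` inside `W` have density at most 2 by `density_log`, so some vertex of
`W` has at most 4 neighbours in `W`; give it the lowest rank. -/
theorem exists_rank (hG : GoodDensity n q H) (hs : Std n q l lam) (hlam : l ≤ 2 * lam)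
    (U : Finset (Sym2 V)) (hU : ∀ e ∈ U, e ∈ H.edgeSet) : ∃ r : V → ℕ, Rank r U := by
  obtain ⟨r, hinj, hout⟩ := exists_rank_on hG hs hlam U hU Finset.univ
  refine ⟨r, ⟨?_, ?_⟩⟩
  · intro x y hxy
    exact hinj (by simp) (by simp) hxy
  · intro v
    exact hout v (Finset.mem_univ v)

end Vale.Agent.Lib.P064H
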