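import Vale.Agent.Lib.P064H.Cover
import Vale.Agent.Lib.P064H.LevelTop
import Vale.Agent.Lib.P064H.Rank
import Vale.Agent.Lib.P064H.Pat

/-!
Lifts overlapping a given lift, for a block with at least two vertices.
-/

open Finset

namespace Vale.Agent.Lib.P064H

open Vale.Agent.Lib.P064 Vale.Agent.Lib.P064E
open scoped Classical

variable {V α : Type} [Fintype V] [Fintype α] {F : SimpleGraph α} {H : SimpleGraph V} {n : ℕ}
  {q l lam : ℝ} {K C : Finset α}

/-- `1 ≤ baseB l` and the power of `√B`: `B ^ j ≤ (√B) ^ m` when `2 j ≤ m`. -/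
lemma baseB_pow_le (hl : 1 ≤ l) {j m : ℕ} (hjm : 2 * j ≤ m) :
    baseB l ^ j ≤ Real.sqrt (baseB l) ^ m := by
  have hsc : (1 : ℝ) ≤ scale l := by
    have h1 : 1 ≤ scale l := by
      unfold scale
      omega
    exact_mod_cast h1
  have hB1 : 1 ≤ baseB l := by
    unfold baseB
    nlinarith
  have hs1 : 1 ≤ Real.sqrt (baseB l) := by
    rw [Real.one_le_sqrt]
    exact hB1
  calc baseB l ^ j = Real.sqrt (baseB l) ^ (2 * j) := by
        rw [pow_mul, Real.sq_sqrt (by linarith)]
    _ ≤ _ := pow_le_pow_right₀ hs1 hjm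

/-- Lifts overlapping `φ₁`: at most `(4 e^60 √B)^m` restrictions to `C`. `U★` = the union from `top_union`,
rank from `exists_rank`, `pattern_sum`, `level_top` at `Q = C`, `two_mul_src_le`, `baseB_pow_le`. -/
theorem overlap_count (hG : GoodDensity n q H) (hs : Std n q l lam) (hlam : l ≤ 2 * lam)
    (hb : MinBlock F l lam K C) (h2 : 2 ≤ C.card) (hV : Fintype.card V ≤ n)
    (S : Finset (α → V)) (hemb : ∀ φ ∈ S, IsEmb F H φ)
    (φ₁ : α → V) (hφ₁ : IsEmb F H φ₁)
    (hag : ∀ φ ∈ S, ∀ x ∈ att F K C, φ x = φ₁ x)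
    (hover : ∀ φ ∈ S, ∃ x ∈ C, ∃ y ∈ C, φ x = φ₁ y) :
    ((S.image (proj C)).card : ℝ) ≤
      (4 * Real.exp 60 * Real.sqrt (baseB l)) ^ (tch F K C).card := by
  have hCK : C ⊆ K := hb.sub
  have hl := hs.l1
  have hUH : ∀ e ∈ tchIm F K C φ₁ ∪ S.biUnion (tchIm F K C), e ∈ H.edgeSet :=
    union_edges S hemb hCK _ (fun e he => tchIm_edge hφ₁ hCK he)
  have hUcard := top_union hG hs hb h2 S hemb φ₁ hφ₁ hag hover
  obtain ⟨r, hr⟩ := exists_rank hG hs hlam _ hUH
  have hlev := level_top hG hs hlam hb h2 hr hUH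
  have hsq0 : 0 ≤ Real.sqrt (baseB l) := Real.sqrt_nonneg _
  have hN0 : (0 : ℝ) ≤ Real.sqrt (baseB l) ^ (tch F K C).card * Real.exp 60 ^ (tch F K C).card := by
    positivity
  have hmain := pattern_sum (Q := C) hCK hr.inj S hemb hN0 ?_
  · calc ((S.image (proj C)).card : ℝ)
        ≤ 4 ^ (tch F K C).card * (Real.sqrt (baseB l) ^ (tch F K C).card *
            Real.exp 60 ^ (tch F K C).card) := hmain
      _ = _ := by
          rw [mul_pow, mul_pow]
          ring
  · intro π S' hS' hpat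
    rcases S'.eq_empty_or_nonempty with rfl | ⟨φ, hφ⟩
    · simpa using hN0
    have hemb' : ∀ φ ∈ S', IsEmb F H φ := fun φ h => hemb φ (hS' h)
    have hj := two_mul_src_le hs hb h2 (Finset.Subset.refl C) hr.inj (hemb' φ hφ).1 (hpat φ hφ)
    have hcardV : C.card ≤ n := by
      have hinj : Set.InjOn φ (C : Set α) := (hemb' φ hφ).1.injOn
      have h3 := Finset.card_le_card_of_injOn φ (s := C) (t := Finset.univ)
        (fun _ _ => by simp) hinj
      rw [Finset.card_univ] at h3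
      exact h3.trans hV
    have hag' : ∀ φ ∈ S', ∀ φ' ∈ S', ∀ x ∈ att F K C, φ x = φ' x := by
      intro φ hφ φ' hφ' x hx'
      rw [hag φ (hS' hφ) x hx', hag φ' (hS' hφ') x hx']
    have h3 := hlev C (Finset.Subset.refl _) hb.ne hcardV π S' _ hemb' hag'
      (Finset.Subset.refl _)
      (fun φ h => (Finset.subset_biUnion_of_mem (tchIm F K C) (hS' h)).trans
        Finset.subset_union_right) hUcard hpat
    refine h3.trans ?_
    have h4 := baseB_pow_le hl hj
    have h5 : Real.exp (60 * ((tch F K C).card : ℝ)) = Real.exp 60 ^ (tch F K C).card := by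
      rw [← Real.exp_nat_mul]
      ring_nf
    rw [h5]
    exact mul_le_mul_of_nonneg_right h4 (by positivity)

end Vale.Agent.Lib.P064H
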