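import Vale.Agent.Lib.P064H.Defs

/-!
A lift is determined by its images on the sources and by colours of the out-neighbours.
-/

open Finset

namespace Vale.Agent.Lib.P064H

open Vale.Agent.Lib.P064 Vale.Agent.Lib.P064E
open scoped Classical

variable {V α : Type} [Fintype V] [Fintype α] {F : SimpleGraph α} {H : SimpleGraph V}
  {K Q : Finset α}

omit [Fintype V] [Fintype α] in
/-- If `f` factors through `g` on `S` then the image of `f` is at most the image of `g`. -/
lemma card_image_le_of_factor {A B D : Type} [DecidableEq B] [DecidableEq D] (S : Finset A)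
    (f : A → B) (g : A → D) (h : ∀ x ∈ S, ∀ y ∈ S, g x = g y → f x = f y) :
    (S.image f).card ≤ (S.image g).card := by
  rcases S.eq_empty_or_nonempty with rfl | ⟨x0, hx0⟩
  · simp
  · haveI : Nonempty A := ⟨x0⟩
    have hsub : S.image f ⊆ (S.image g).image (fun c => f (Function.invFunOn g (S : Set A) c)) := by
      intro b hb
      obtain ⟨x, hx, rfl⟩ := Finset.mem_image.1 hb
      refine Finset.mem_image.2 ⟨g x, Finset.mem_image_of_mem _ hx, ?_⟩
      have h1 : Function.invFunOn g (S : Set A) (g x) ∈ (S : Set A) :=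
        Function.invFunOn_mem ⟨x, Finset.mem_coe.2 hx, rfl⟩
      have h2 : g (Function.invFunOn g (S : Set A) (g x)) = g x :=
        Function.invFunOn_eq ⟨x, Finset.mem_coe.2 hx, rfl⟩
      exact h _ (Finset.mem_coe.1 h1) _ hx h2
    exact (Finset.card_le_card hsub).trans Finset.card_image_le

/-- Colours of the out-neighbours. -/
lemma exists_colour {r : V → ℕ} {U : Finset (Sym2 V)} (hr : Rank r U) :
    ∃ c : V → V → Fin 4, ∀ v, Set.InjOn (c v) (Out r U v) := by
  have h : ∀ v, ∃ cv : V → Fin 4, Set.InjOn cv (Out r U v) := by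
    intro v
    have hcard : Fintype.card ↥(Out r U v) ≤ Fintype.card (Fin 4) := by
      simpa using hr.out v
    obtain ⟨e⟩ := Function.Embedding.nonempty_of_card_le hcard
    refine ⟨fun w => if h : w ∈ Out r U v then e ⟨w, h⟩ else 0, ?_⟩
    intro a ha b hb hab
    have ha' := Finset.mem_coe.1 ha
    have hb' := Finset.mem_coe.1 hb
    simp only [dif_pos ha', dif_pos hb'] at hab
    have h3 := e.injective hab
    exact congrArg Subtype.val h3
  choose c hc using h
  exact ⟨c, hc⟩

/-- With a fixed pattern: at most `|vs U| ^ |Src| * 4 ^ |Q|` restrictions to `Q`. Proof: colour the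
out-neighbours of each `v` injectively with `Fin 4`. Map `φ` to (`φ` on sources, colour of `φ y` in
`Out (φ (π y))` for non sources `y`). Injective: if `f, f'` have the same data and differ on `Q`,
take `y ∈ Q` with `f y ≠ f' y` and `r (f y)` minimal. `y` is no source; `z = π y` is a neighbour of `y`:
it is in `att F K Q` (agreement) or in `Q` with `r (f z) < r (f y)` so `f z = f' z`;
same colour in the same out-set gives `f y = f' y`. -/
theorem recover_count (hQK : Q ⊆ K) {r : V → ℕ} {Ustar U : Finset (Sym2 V)} (hr : Rank r Ustar)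
    (hUU : U ⊆ Ustar) {π : α → α} (S : Finset (α → V))
    (_hemb : ∀ φ ∈ S, IsEmb F H φ)
    (hag : ∀ φ ∈ S, ∀ φ' ∈ S, ∀ x ∈ att F K Q, φ x = φ' x)
    (hSU : ∀ φ ∈ S, tchIm F K Q φ ⊆ U)
    (hpat : ∀ φ ∈ S, PatOK F K Q r π φ)
    (hvs : ∀ φ ∈ S, ∀ y ∈ Src Q π, φ y ∈ vs U) :
    ((S.image (proj Q)).card : ℝ) ≤ ((vs U).card : ℝ) ^ (Src Q π).card * 4 ^ Q.card := by
  obtain ⟨c, hc⟩ := exists_colour hr
  let data : (α → V) → (↥(Src Q π) → V) × (↥Q → Fin 4) :=
    fun φ => (fun y => φ y, fun y => c (φ (π y)) (φ y))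
  have hfac : ∀ φ ∈ S, ∀ φ' ∈ S, data φ = data φ' → proj Q φ = proj Q φ' := by
    intro φ hφ φ' hφ' hd
    have h1 : ∀ y, y ∈ Src Q π → φ y = φ' y := fun y hy =>
      congrFun (congrArg Prod.fst hd) ⟨y, hy⟩
    have h2 : ∀ y, y ∈ Q → c (φ (π y)) (φ y) = c (φ' (π y)) (φ' y) := fun y hy =>
      congrFun (congrArg Prod.snd hd) ⟨y, hy⟩
    have key : ∀ y ∈ Q, φ y = φ' y := by
      by_contra hne
      push Not at hne
      obtain ⟨y0, hy0, hy0ne⟩ := hne
      have hD : (Q.filter (fun y => φ y ≠ φ' y)).Nonempty :=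
        ⟨y0, Finset.mem_filter.2 ⟨hy0, hy0ne⟩⟩
      obtain ⟨y, hyD, hmin⟩ := Finset.exists_min_image _ (fun y => r (φ y)) hD
      obtain ⟨hyQ, hyne⟩ := Finset.mem_filter.1 hyD
      have hπ : π y ≠ y := by
        intro h
        exact hyne (h1 y (Finset.mem_filter.2 ⟨hyQ, h⟩))
      have hp : π y ∈ nb F K y ∧ r (φ (π y)) < r (φ y) := by
        rcases hpat φ hφ y hyQ with h | h
        · exact absurd h.1 hπ
        · exact h
      have hp' : π y ∈ nb F K y ∧ r (φ' (π y)) < r (φ' y) := by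
        rcases hpat φ' hφ' y hyQ with h | h
        · exact absurd h.1 hπ
        · exact h
      obtain ⟨hzK, hadj⟩ := Finset.mem_filter.1 hp.1
      have hzeq : φ (π y) = φ' (π y) := by
        by_cases hzQ : π y ∈ Q
        · by_contra hzne
          have h3 := hmin (π y) (Finset.mem_filter.2 ⟨hzQ, hzne⟩)
          have h4 := hp.2
          omega
        · exact hag φ hφ φ' hφ' _ (mem_att.2 ⟨hzK, hzQ, y, hyQ, hadj⟩)
      have hedge : s(y, π y) ∈ tch F K Q :=
        (mem_tch_pair hQK).2 ⟨hadj, hQK hyQ, hzK, Or.inl hyQ⟩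
      have hin : ∀ ψ ∈ S, s(ψ (π y), ψ y) ∈ Ustar := by
        intro ψ hψ
        have h5 : Sym2.map ψ s(y, π y) ∈ tchIm F K Q ψ := Finset.mem_image_of_mem _ hedge
        rw [Sym2.map_mk] at h5
        have h6 := hUU (hSU ψ hψ h5)
        rwa [Sym2.eq_swap] at h6
      have hO1 : φ y ∈ Out r Ustar (φ (π y)) :=
        Finset.mem_filter.2 ⟨Finset.mem_univ _, hin φ hφ, hp.2⟩
      have hO2 : φ' y ∈ Out r Ustar (φ (π y)) := by
        rw [hzeq]
        exact Finset.mem_filter.2 ⟨Finset.mem_univ _, hin φ' hφ', hp'.2⟩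
      apply hyne
      apply hc (φ (π y)) (Finset.mem_coe.2 hO1) (Finset.mem_coe.2 hO2)
      rw [h2 y hyQ, ← hzeq]
    funext x
    unfold proj
    by_cases hx : x ∈ Q
    · rw [if_pos hx, if_pos hx, key x hx]
    · rw [if_neg hx, if_neg hx]
  have hmem : ∀ φ ∈ S, data φ ∈ (Fintype.piFinset fun _ : ↥(Src Q π) => vs U) ×ˢ
      (Finset.univ : Finset (↥Q → Fin 4)) := by
    intro φ hφ
    refine Finset.mem_product.2 ⟨Fintype.mem_piFinset.2 ?_, Finset.mem_univ _⟩
    intro y
    exact hvs φ hφ y y.2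
  have hcard : (S.image data).card ≤ (vs U).card ^ (Src Q π).card * 4 ^ Q.card := by
    have h := Finset.card_le_card (Finset.image_subset_iff.2 hmem)
    have h8 : (Fintype.piFinset fun _ : ↥(Src Q π) => vs U).card =
        (vs U).card ^ (Src Q π).card := by
      simp [Fintype.card_piFinset]
    have h9 : (Finset.univ : Finset (↥Q → Fin 4)).card = 4 ^ Q.card := by
      simp
    rw [Finset.card_product, h8, h9] at h
    exact h
  have h7 := card_image_le_of_factor S (proj Q) data (fun x hx y hy h => hfac x hx y hy h)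
  exact_mod_cast h7.trans hcard

end Vale.Agent.Lib.P064H
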